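import Vale.Agent.P372.Proto

/-! The key inequality forces error at least 2/3 for every protocol with a nonempty key. -/

open scoped ComplexOrder MatrixOrder Kronecker
open Matrix

namespace Vale.Agent.P372

variable {E : Type} [Fintype E] [DecidableEq E]

noncomputable def grp {ℓ : ℕ} {A : Type} (M : Key (ℓ + 1) → Matrix A A ℂ) (c : Bool) :
    Matrix A A ℂ := ∑ k, if k 0 = c then M k else 0

lemma grp_psd {ℓ : ℕ} {A : Type} {M : Key (ℓ + 1) → Matrix A A ℂ} (h : ∀ k, (M k).PosSemidef)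
    (c : Bool) : (grp M c).PosSemidef :=
  posSemidef_sum _ fun k _ => by
    split_ifs
    · exact h k
    · exact PosSemidef.zero

noncomputable def lam {S : Type} [Fintype S] (Ψ : Matrix S E ℂ) (g : Matrix E E ℂ)
    (C : Matrix S S ℂ) : ℂ := (g * (Ψᴴ * C * Ψ)ᵀ).trace

omit [DecidableEq E] in
lemma lam_sum {S ι : Type} [Fintype S] [Fintype ι] (Ψ : Matrix S E ℂ) (g : Matrix E E ℂ)
    (C : ι → Matrix S S ℂ) : lam Ψ g (∑ k, C k) = ∑ k, lam Ψ g (C k) := by
  simp only [lam, Matrix.mul_sum, Matrix.sum_mul, transpose_sum, trace_sum]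

omit [DecidableEq E] in
lemma lam_grp {ℓ : ℕ} {A B : Type} [Fintype A] [Fintype B] (Ψ : Matrix (A × B) E ℂ)
    (g : Bool → Bool → Matrix E E ℂ) (M : Key (ℓ + 1) → Matrix A A ℂ)
    (N : Key (ℓ + 1) → Matrix B B ℂ) :
    ∑ k : Key (ℓ + 1) × Key (ℓ + 1), lam Ψ (g (k.1 0) (k.2 0)) (M k.1 ⊗ₖ N k.2) =
      ∑ c, ∑ c', lam Ψ (g c c') (grp M c ⊗ₖ grp N c') := by
  simp only [grp, sum_kron, kron_sum, lam_sum, Fintype.sum_prod_type]
  symm
  calc ∑ c, ∑ c', ∑ k' : Key (ℓ + 1), ∑ k : Key (ℓ + 1), lam Ψ (g c c')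
        ((if k 0 = c then M k else 0) ⊗ₖ (if k' 0 = c' then N k' else 0))
      = ∑ c, ∑ k' : Key (ℓ + 1), ∑ c', ∑ k : Key (ℓ + 1), lam Ψ (g c c')
        ((if k 0 = c then M k else 0) ⊗ₖ (if k' 0 = c' then N k' else 0)) :=
        Finset.sum_congr rfl fun c _ => Finset.sum_comm
    _ = ∑ c, ∑ k' : Key (ℓ + 1), ∑ k : Key (ℓ + 1), lam Ψ (g c (k' 0))
        ((if k 0 = c then M k else 0) ⊗ₖ (N k')) := by
        refine Finset.sum_congr rfl fun c _ => Finset.sum_congr rfl fun k' _ => ?_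
        rw [Finset.sum_eq_single (k' 0)]
        · simp
        · intro b _ hb; simp [hb.symm, lam]
        · simp
    _ = ∑ k' : Key (ℓ + 1), ∑ k : Key (ℓ + 1), ∑ c, lam Ψ (g c (k' 0))
        ((if k 0 = c then M k else 0) ⊗ₖ (N k')) := by
        rw [Finset.sum_comm]
        exact Finset.sum_congr rfl fun c _ => Finset.sum_comm
    _ = ∑ k' : Key (ℓ + 1), ∑ k : Key (ℓ + 1), lam Ψ (g (k 0) (k' 0)) (M k ⊗ₖ N k') := by
        refine Finset.sum_congr rfl fun k' _ => Finset.sum_congr rfl fun k _ => ?_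
        rw [Finset.sum_eq_single (k 0)]
        · simp
        · intro b _ hb; simp [hb.symm, lam]
        · simp
    _ = _ := Finset.sum_comm

lemma lam_one {S : Type} [Fintype S] (φ : S × E → ℂ) (C : Matrix S S ℂ) :
    lam (mat φ) 1 C = (C * traceSnd (proj φ)).trace := by
  rw [lam, Matrix.one_mul, trace_transpose, tr_mat]

omit [DecidableEq E] in
lemma lam_neg {S : Type} [Fintype S] (Ψ : Matrix S E ℂ) (g : Matrix E E ℂ) (C : Matrix S S ℂ) :
    lam Ψ (-g) C = -lam Ψ g C := by
  simp [lam]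

omit [DecidableEq E] in
lemma lam_transpose {S : Type} [Fintype S] (Ψ : Matrix S E ℂ) (g : Matrix E E ℂ)
    (C : Matrix S S ℂ) : lam Ψ gᵀ C = (g * (Ψᴴ * C * Ψ)).trace := by
  rw [lam, ← transpose_mul, trace_transpose, trace_mul_comm]

lemma sum_flip {ℓ : ℕ} (F : Bool → ℂ) (h : F true = -F false) :
    ∑ z : Key (ℓ + 1), F (z 0) = 0 := by
  let e : Key (ℓ + 1) ≃ Key (ℓ + 1) :=
    Function.Involutive.toPerm (fun z i => !z i) fun z => by funext i; simp
  have h1 : ∑ z : Key (ℓ + 1), F (z 0) = ∑ z : Key (ℓ + 1), F (e z 0) :=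
    (Equiv.sum_comp e fun z => F (z 0)).symm
  have h2 : ∑ z : Key (ℓ + 1), F (e z 0) = -∑ z : Key (ℓ + 1), F (z 0) := by
    rw [← Finset.sum_neg_distrib]
    refine Finset.sum_congr rfl fun z _ => ?_
    show F (!z 0) = _
    cases z 0 <;> simp [h]
  linear_combination (1 / 2 : ℂ) * (h1.trans h2)

omit [Fintype E] [DecidableEq E] in
lemma ideal_herm (ℓ : ℕ) {σ : Matrix E E ℂ} (h : σ.IsHermitian) : (ideal ℓ σ).IsHermitian := by
  unfold IsHermitian ideal
  rw [conjTranspose_smul, conjTranspose_sum]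
  congr 1
  · simp
  · refine Finset.sum_congr rfl fun z _ => ?_
    rw [conjTranspose_kronecker, h.eq, conjTranspose_single, star_one]

theorem error_bound {ℓ a b : ℕ} (P : Protocol (ℓ + 1) a b) (φ : (Fin a × Fin b) × E → ℂ)
    (hK : KeyIneq (traceSnd (proj φ))) (h1 : (traceSnd (proj φ)).trace = 1) {ε : ℝ}
    (h : HasError P φ ε) : 2 / 3 ≤ ε := by
  obtain ⟨σ, ⟨hσ, hσ1⟩, hε⟩ := h
  obtain ⟨M, N, hM, hN, hsum, heve⟩ := effects (E := E) P
  set ρ := traceSnd (proj φ) with hρ
  have hfin : P.final (proj φ) =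
      cq (fun (k : Key (ℓ + 1) × Key (ℓ + 1)) t =>
        ((mat φ)ᴴ * (M t k.1 ⊗ₖ N t k.2) * mat φ)ᵀ) := by
    simp only [Protocol.final, cq, heve, traceFst_proj]
  have hX : (P.final (proj φ) - ideal (ℓ + 1) σ).IsHermitian := by
    refine IsHermitian.sub ?_ (ideal_herm _ hσ.1)
    rw [hfin]
    exact cq_herm fun k t =>
      (((hM t k.1).kronecker (hN t k.2)).conjTranspose_mul_mul_same _).transpose.1
  set σt : P.Transcript → Matrix E E ℂ := fun t => Matrix.of fun e e' => σ (e, t) (e', t)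
    with hσt
  have hσt1 : ∑ t, (σt t).trace = 1 := by
    rw [← hσ1]
    simp only [hσt, trace, diag_apply, of_apply, Fintype.sum_prod_type]
    exact Finset.sum_comm
  have test : ∀ g : P.Transcript → Bool → Bool → Matrix E E ℂ, (∀ t c c', (g t c c').IsHermitian) →
      (∀ t c c', g t c c' * g t c c' = 1) →
      (∑ t, ∑ c, ∑ c', lam (mat φ) (g t c c') (grp (M t) c ⊗ₖ grp (N t) c') -
        ((2 : ℂ) ^ (ℓ + 1))⁻¹ * ∑ z : Key (ℓ + 1), ∑ t, (g t (z 0) (z 0) * σt t).trace).re ≤ ε := by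
    intro g hg1 hg2
    have a1 := tr_le_traceNorm hX
      (H := cq fun (k : Key (ℓ + 1) × Key (ℓ + 1)) t => g t (k.1 0) (k.2 0))
      (cq_herm fun k t => hg1 _ _ _) (by rw [cq_mul]; simp only [hg2]; exact cq_one)
    refine le_trans (le_of_eq ?_) (a1.trans hε)
    congr 1
    rw [mul_sub, trace_sub, hfin, cq_mul, cq_trace]
    congr 1
    · exact (Finset.sum_congr rfl fun t _ => (lam_grp (mat φ) (g t) (M t) (N t)).symm).trans
        Finset.sum_comm
    · rw [ideal, Matrix.mul_smul, trace_smul, Matrix.mul_sum, trace_sum, smul_eq_mul]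
      simp only [cq_trace_single, hσt]
  set p : P.Transcript → Bool → Bool → ℝ :=
    fun t c c' => ((grp (M t) c ⊗ₖ grp (N t) c') * ρ).trace.re with hp
  have tot : ∑ t, (p t true true + p t true false + (p t false true + p t false false)) = 1 := by
    have a1 : ∑ t, ∑ c, ∑ c', lam (mat φ) 1 (grp (M t) c ⊗ₖ grp (N t) c') = 1 := by
      have := fun t => lam_grp (mat φ) (fun _ _ => 1) (M t) (N t)
      rw [← Finset.sum_congr rfl fun t _ => this t]
      simp only [Fintype.sum_prod_type, ← lam_sum, hsum]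
      rw [lam_one, Matrix.one_mul, h1]
    have a2 := congrArg Complex.re a1
    simp only [lam_one, Fintype.sum_bool, Complex.re_sum, Complex.add_re, Complex.one_re] at a2
    exact a2
  -- second test: agreement of the first bits
  have t2 := test (fun _ c c' => if c = c' then -1 else 1)
    (fun t c c' => by split_ifs; exacts [isHermitian_one.neg, isHermitian_one])
    (fun t c c' => by split_ifs <;> simp)
  have t2' : ∑ t, (-p t true true + p t true false + (p t false true - p t false false)) + 1 ≤ ε := by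
    refine le_trans (le_of_eq ?_) t2
    have a1 : ((2 : ℂ) ^ (ℓ + 1))⁻¹ * ∑ z : Key (ℓ + 1), ∑ t,
        ((if z 0 = z 0 then -1 else 1 : Matrix E E ℂ) * σt t).trace = -1 := by
      simp only [if_true, neg_mul, Matrix.one_mul, trace_neg, Finset.sum_neg_distrib, hσt1]
      simp
    rw [a1]
    simp [lam_neg, lam_one, hp, hρ, Complex.re_sum, sub_eq_add_neg]
  -- first test: secrecy of the first bit
  have hf := fun t => fid ((grp_psd (hM t) false).kronecker (grp_psd (hN t) false))
    ((grp_psd (hM t) true).kronecker (grp_psd (hN t) true)) (mat φ)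
  choose Z L hZ hL hL2 hPS using hf
  have t1 := test (fun t c c' => if c = c' then (if c then -(L t)ᵀ else (L t)ᵀ) else 1)
    (fun t c c' => by
      split_ifs
      exacts [(hL t).transpose.neg, (hL t).transpose, isHermitian_one])
    (fun t c c' => by
      split_ifs <;> simp [← transpose_mul, hL2])
  have t1' : ∑ t, (p t true true + p t false false) ≤ ε := by
    refine le_trans ?_ t1
    have a1 : ∑ z : Key (ℓ + 1), ∑ t, ((if z 0 = z 0 then (if z 0 then -(L t)ᵀ else (L t)ᵀ)
        else 1 : Matrix E E ℂ) * σt t).trace = 0 := by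
      simp only [if_true]
      exact sum_flip (fun c => ∑ t, ((if c then -(L t)ᵀ else (L t)ᵀ : Matrix E E ℂ) * σt t).trace)
        (by simp)
    rw [a1, mul_zero, sub_zero, Complex.re_sum]
    refine Finset.sum_le_sum fun t _ => ?_
    have a2 := hK _ _ _ _ _ (grp_psd (hM t) false) (grp_psd (hM t) true) (grp_psd (hN t) false)
      (grp_psd (hN t) true) (hZ t)
    have a3 := hPS t
    rw [tr_mat, tr_mat, tr_mat, mul_sub, trace_sub, Complex.sub_re] at a3
    simp only [Fintype.sum_bool, if_true, Bool.true_eq_false, Bool.false_eq_true, if_false,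
      lam_neg, lam_one, lam_transpose, Complex.add_re, Complex.neg_re, hp]
    linarith
  simp only [Finset.sum_add_distrib, Finset.sum_sub_distrib, Finset.sum_neg_distrib] at tot t1' t2'
  linarith

end Vale.Agent.P372
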