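import Vale.Agent.P372.Dfs

namespace Vale.Agent.P372.Dfs

set_option maxRecDepth 100000 in
theorem cert8 : run [true, false, true, true, true] pts pts tr tr = true := by
  decide +kernel

set_option maxRecDepth 100000 in
theorem cert9 : run [true, false, true, true, false] pts pts tr tr = true := by
  decide +kernel

set_option maxRecDepth 100000 in
theorem cert10 : run [true, false, true, false, true] pts pts tr tr = true := by
  decide +kernel

set_option maxRecDepth 100000 in
theorem cert11 : run [true, false, true, false, false] pts pts tr tr = true := by
  decide +kernel

end Vale.Agent.P372.Dfs
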