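import Mathlib

/-!
Definitions for P372: states, separability, purifications, key-distillation protocols (local
instruments with public outcomes, then local key measurements), their error, and the
distillable key rate.
-/

open scoped ComplexOrder Kronecker ENNReal
open Matrix Filter Topology

namespace Vale.Agent.P372

/-- A density operator: positive semidefinite with trace one. -/
def IsState {n : Type} [Fintype n] (ρ : Matrix n n ℂ) : Prop :=
  ρ.PosSemidef ∧ ρ.trace = 1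

/-- A finite convex combination of product states. -/
def Separable {dA dB : ℕ} (ρ : Matrix (Fin dA × Fin dB) (Fin dA × Fin dB) ℂ) : Prop :=
  ∃ (m : ℕ) (p : Fin m → ℝ) (α : Fin m → Matrix (Fin dA) (Fin dA) ℂ)
    (β : Fin m → Matrix (Fin dB) (Fin dB) ℂ),
    (∀ i, 0 ≤ p i) ∧ ∑ i, p i = 1 ∧ (∀ i, IsState (α i)) ∧ (∀ i, IsState (β i)) ∧
      ρ = ∑ i, (p i : ℂ) • (α i ⊗ₖ β i)

/-- The partial trace over the first factor. -/
def traceFst {S E : Type} [Fintype S] (X : Matrix (S × E) (S × E) ℂ) : Matrix E E ℂ :=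
  fun e e' => ∑ s, X (s, e) (s, e')

/-- The partial trace over the second factor. -/
def traceSnd {S E : Type} [Fintype E] (X : Matrix (S × E) (S × E) ℂ) : Matrix S S ℂ :=
  fun s s' => ∑ e, X (s, e) (s', e)

/-- The rank-one operator `|ψ⟩⟨ψ|`. -/
def proj {n : Type} (ψ : n → ℂ) : Matrix n n ℂ := vecMulVec ψ (star ψ)

/-- `ψ` on `AB ⊗ E` purifies `ρ` on `AB`: `tr_E |ψ⟩⟨ψ| = ρ`. -/
def IsPurification {dA dB dE : ℕ} (ψ : (Fin dA × Fin dB) × Fin dE → ℂ)
    (ρ : Matrix (Fin dA × Fin dB) (Fin dA × Fin dB) ℂ) : Prop :=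
  traceSnd (proj ψ) = ρ

/-- `ψ^{⊗ n}`, with `A^n` and `B^n` numbered by `finFunctionFinEquiv`. -/
def power {dA dB dE : ℕ} (ψ : (Fin dA × Fin dB) × Fin dE → ℂ) (n : ℕ) :
    (Fin (dA ^ n) × Fin (dB ^ n)) × (Fin n → Fin dE) → ℂ :=
  fun x => ∏ i, ψ ((finFunctionFinEquiv.symm x.1.1 i, finFunctionFinEquiv.symm x.1.2 i), x.2 i)

/-- Keys of length `ℓ`. -/
abbrev Key (ℓ : ℕ) : Type := Fin ℓ → Bool

/-- Protocols with `ℓ`-bit keys, started when Alice holds dimension `a` and Bob dimension `b`.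
`done`: Alice and Bob measure their keys with POVMs `M`, `N`.
`alice`: Alice applies an instrument with Kraus operators `K i j`; the outcome `i` is announced
publicly, `j` is discarded, and the protocol continues with `next i`.  `bob`: the same for Bob. -/
inductive Protocol (ℓ : ℕ) : ℕ → ℕ → Type
  | done {a b : ℕ} (M : Key ℓ → Matrix (Fin a) (Fin a) ℂ) (N : Key ℓ → Matrix (Fin b) (Fin b) ℂ)
      (hM : ∀ k, (M k).PosSemidef) (hM1 : ∑ k, M k = 1)
      (hN : ∀ k, (N k).PosSemidef) (hN1 : ∑ k, N k = 1) : Protocol ℓ a b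
  | alice {a b : ℕ} (m r : ℕ) (a' : Fin m → ℕ)
      (K : (i : Fin m) → Fin r → Matrix (Fin (a' i)) (Fin a) ℂ)
      (hK : ∑ i, ∑ j, (K i j)ᴴ * K i j = 1)
      (next : (i : Fin m) → Protocol ℓ (a' i) b) : Protocol ℓ a b
  | bob {a b : ℕ} (m r : ℕ) (b' : Fin m → ℕ)
      (K : (i : Fin m) → Fin r → Matrix (Fin (b' i)) (Fin b) ℂ)
      (hK : ∑ i, ∑ j, (K i j)ᴴ * K i j = 1)
      (next : (i : Fin m) → Protocol ℓ a (b' i)) : Protocol ℓ a b

/-- The complete public transcripts of a protocol. -/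
def Protocol.Transcript {ℓ : ℕ} : {a b : ℕ} → Protocol ℓ a b → Type
  | _, _, .done _ _ _ _ _ _ => Unit
  | _, _, .alice m _ _ _ _ next => (i : Fin m) × (next i).Transcript
  | _, _, .bob m _ _ _ _ next => (i : Fin m) × (next i).Transcript

theorem Protocol.finite_transcript {ℓ a b : ℕ} (P : Protocol ℓ a b) : Finite P.Transcript := by
  induction P with
  | done => exact inferInstanceAs (Finite Unit)
  | alice m _ _ _ _ next ih => exact inferInstanceAs (Finite ((i : Fin m) × (next i).Transcript))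
  | bob m _ _ _ _ next ih => exact inferInstanceAs (Finite ((i : Fin m) × (next i).Transcript))

noncomputable instance Protocol.fintypeTranscript {ℓ a b : ℕ} (P : Protocol ℓ a b) :
    Fintype P.Transcript :=
  @Fintype.ofFinite _ P.finite_transcript

noncomputable instance Protocol.decEqTranscript {ℓ a b : ℕ} (P : Protocol ℓ a b) :
    DecidableEq P.Transcript :=
  Classical.decEq _

/-- Run the protocol on a state `X` of `AB ⊗ E`: the unnormalised state of `E` on the event that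
the transcript is `t`, Alice's key is `k` and Bob's key is `k'`. -/
noncomputable def Protocol.eve {ℓ : ℕ} {E : Type} [Fintype E] [DecidableEq E] :
    {a b : ℕ} → (P : Protocol ℓ a b) →
      Matrix ((Fin a × Fin b) × E) ((Fin a × Fin b) × E) ℂ →
      P.Transcript → Key ℓ → Key ℓ → Matrix E E ℂ
  | _, _, .done M N _ _ _ _, X, _, k, k' =>
      traceFst (((M k ⊗ₖ N k') ⊗ₖ (1 : Matrix E E ℂ)) * X)
  | _, b, .alice _ _ _ K _ next, X, t, k, k' =>
      (next t.1).eve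
        (∑ j, ((K t.1 j ⊗ₖ (1 : Matrix (Fin b) (Fin b) ℂ)) ⊗ₖ (1 : Matrix E E ℂ)) * X *
          ((K t.1 j ⊗ₖ (1 : Matrix (Fin b) (Fin b) ℂ)) ⊗ₖ (1 : Matrix E E ℂ))ᴴ) t.2 k k'
  | a, _, .bob _ _ _ K _ next, X, t, k, k' =>
      (next t.1).eve
        (∑ j, (((1 : Matrix (Fin a) (Fin a) ℂ) ⊗ₖ K t.1 j) ⊗ₖ (1 : Matrix E E ℂ)) * X *
          (((1 : Matrix (Fin a) (Fin a) ℂ) ⊗ₖ K t.1 j) ⊗ₖ (1 : Matrix E E ℂ))ᴴ) t.2 k k'

/-- The final state `τ` on `K_A K_B E'`, where `E'` is `E` together with the transcript. -/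
noncomputable def Protocol.final {ℓ a b : ℕ} {E : Type} [Fintype E] [DecidableEq E]
    (P : Protocol ℓ a b) (X : Matrix ((Fin a × Fin b) × E) ((Fin a × Fin b) × E) ℂ) :
    Matrix ((Key ℓ × Key ℓ) × (E × P.Transcript)) ((Key ℓ × Key ℓ) × (E × P.Transcript)) ℂ :=
  ∑ k : Key ℓ × Key ℓ, ∑ t : P.Transcript,
    single k k (1 : ℂ) ⊗ₖ (P.eve X t k.1 k.2 ⊗ₖ single t t (1 : ℂ))

/-- The ideal state `2^{-ℓ} ∑_z |z,z⟩⟨z,z| ⊗ σ`. -/
noncomputable def ideal (ℓ : ℕ) {F : Type} (σ : Matrix F F ℂ) :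
    Matrix ((Key ℓ × Key ℓ) × F) ((Key ℓ × Key ℓ) × F) ℂ :=
  ((2 : ℂ) ^ ℓ)⁻¹ • ∑ z : Key ℓ, single (z, z) (z, z) (1 : ℂ) ⊗ₖ σ

/-- The trace norm `tr √(Xᴴ X)`, the square root taken by the functional calculus of the
Hermitian matrix `Xᴴ X`. -/
noncomputable def traceNorm {n : Type} [Fintype n] [DecidableEq n] (X : Matrix n n ℂ) : ℝ :=
  ((isHermitian_conjTranspose_mul_self X).cfc Real.sqrt).trace.re

/-- The protocol `P`, run on the pure state `φ` of `AB ⊗ E`, has error `ε`. -/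
def HasError {ℓ a b : ℕ} {E : Type} [Fintype E] [DecidableEq E] (P : Protocol ℓ a b)
    (φ : (Fin a × Fin b) × E → ℂ) (ε : ℝ) : Prop :=
  ∃ σ : Matrix (E × P.Transcript) (E × P.Transcript) ℂ,
    IsState σ ∧ traceNorm (P.final (proj φ) - ideal ℓ σ) ≤ ε

/-- The distillable key: the supremum of `liminf ℓ_n / n` over sequences of protocols on
`ψ^{⊗ n}` with errors tending to zero. -/
noncomputable def keyRate {dA dB dE : ℕ} (ψ : (Fin dA × Fin dB) × Fin dE → ℂ) : ℝ≥0∞ :=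
  sSup {r | ∃ (ℓ : ℕ → ℕ) (P : (n : ℕ) → Protocol (ℓ n) (dA ^ n) (dB ^ n)) (ε : ℕ → ℝ),
    (∀ n, HasError (P n) (power ψ n) (ε n)) ∧ Tendsto ε atTop (𝓝 0) ∧
      r = liminf (fun n : ℕ => (ℓ n : ℝ≥0∞) / (n : ℝ≥0∞)) atTop}

end Vale.Agent.P372
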