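import Mathlib

/-!
A checked search: exact integer elimination, used to show that two complex linear functionals
cannot cover a finite list of integer vectors without killing a target vector.
-/

namespace Vale.Agent.P372.Dfs

/-- integer vectors: `z` is an entry 0, `p n` is the entry n+1, `m n` is the entry -(n+1) -/
inductive V : Type
  | nil : V
  | z (t : V) : V
  | p (n : Nat) (t : V) : V
  | m (n : Nat) (t : V) : V

noncomputable def posK (u : Nat) (k : (V → V) → Bool) : Bool :=
  Nat.rec (k V.z) (fun d _ => k (V.p d)) u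
noncomputable def negK (u : Nat) (k : (V → V) → Bool) : Bool :=
  Nat.rec (k V.z) (fun d _ => k (V.m d)) u
noncomputable def difK (u v : Nat) (k : (V → V) → Bool) : Bool :=
  Nat.rec (negK (Nat.sub v u) k) (fun d _ => k (V.p d)) (Nat.sub u v)

noncomputable def add (a c : Nat) (r : V) : V → (V → Bool) → Bool :=
  V.rec (fun b k => V.rec (k V.nil) (fun _ _ => false) (fun _ _ _ => false) (fun _ _ _ => false) b)
    (fun _ ih b k => V.rec false
      (fun b' _ => ih b' fun t => k (V.z t))
      (fun y b' _ => posK (Nat.mul c (Nat.succ y)) fun f => ih b' fun t => k (f t))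
      (fun y b' _ => negK (Nat.mul c (Nat.succ y)) fun f => ih b' fun t => k (f t)) b)
    (fun x _ ih b k => V.rec false
      (fun b' _ => posK (Nat.mul a (Nat.succ x)) fun f => ih b' fun t => k (f t))
      (fun y b' _ => posK (Nat.add (Nat.mul a (Nat.succ x)) (Nat.mul c (Nat.succ y)))
        fun f => ih b' fun t => k (f t))
      (fun y b' _ => difK (Nat.mul a (Nat.succ x)) (Nat.mul c (Nat.succ y))
        fun f => ih b' fun t => k (f t)) b)
    (fun x _ ih b k => V.rec false
      (fun b' _ => negK (Nat.mul a (Nat.succ x)) fun f => ih b' fun t => k (f t))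
      (fun y b' _ => difK (Nat.mul c (Nat.succ y)) (Nat.mul a (Nat.succ x))
        fun f => ih b' fun t => k (f t))
      (fun y b' _ => negK (Nat.add (Nat.mul a (Nat.succ x)) (Nat.mul c (Nat.succ y)))
        fun f => ih b' fun t => k (f t)) b) r

noncomputable def neg (r : V) : (V → Bool) → Bool :=
  V.rec (fun k => k V.nil) (fun _ ih k => ih fun t => k (V.z t))
    (fun x _ ih k => ih fun t => k (V.m x t)) (fun x _ ih k => ih fun t => k (V.p x t)) r

/-- remove the entry of r at the first nonzero position of b -/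
noncomputable def pull (b : V) : V → (V → Bool) → (Nat → V → Bool) → (Nat → V → Bool) → Bool :=
  V.rec (fun _ _ _ _ => false)
    (fun _ ih r k0 kp km => V.rec false
      (fun r' _ => ih r' (fun t => k0 (V.z t)) (fun q t => kp q (V.z t)) (fun q t => km q (V.z t)))
      (fun x r' _ => ih r' (fun t => k0 (V.p x t)) (fun q t => kp q (V.p x t))
        (fun q t => km q (V.p x t)))
      (fun x r' _ => ih r' (fun t => k0 (V.m x t)) (fun q t => kp q (V.m x t))
        (fun q t => km q (V.m x t))) r)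
    (fun _ _ _ r k0 kp km =>
      V.rec false (fun r' _ => k0 r') (fun x r' _ => kp x r') (fun x r' _ => km x r') r)
    (fun _ _ _ r k0 kp km =>
      V.rec false (fun r' _ => k0 r') (fun x r' _ => kp x r') (fun x r' _ => km x r') r) b

noncomputable def frc (n : Nat) (k : Nat → Bool) : Bool :=
  Nat.rec false (fun d _ => k (Nat.succ d)) n

noncomputable def elim (b : V) (p : Nat) (bp bm : V) (r : V) (k : V → Bool) : Bool :=
  pull b r k
    (fun q t => frc (Nat.gcd (Nat.succ p) (Nat.succ q)) fun g =>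
      frc (Nat.div (Nat.succ p) g) fun a => frc (Nat.div (Nat.succ q) g) fun c => add a c t bm k)
    (fun q t => frc (Nat.gcd (Nat.succ p) (Nat.succ q)) fun g =>
      frc (Nat.div (Nat.succ p) g) fun a => frc (Nat.div (Nat.succ q) g) fun c => add a c t bp k)

noncomputable def allZ (b : V) : Bool :=
  V.rec true (fun _ ih => ih) (fun _ _ _ => false) (fun _ _ _ => false) b

noncomputable def elimAll (b : V) (p : Nat) (bp bm : V) (rs : List V) : (List V → Bool) → Bool :=
  List.rec (fun k => k []) (fun r _ ih k => elim b p bp bm r fun r' => ih fun t => k (r' :: t)) rs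

noncomputable def branch (b t : V) (rs : List V) (k : V → List V → Bool) : Bool :=
  pull b b (fun _ => false)
    (fun p bp => neg bp fun bm => elim b p bp bm t fun t' =>
      Bool.rec (elimAll b p bp bm rs (k t')) true (allZ t'))
    (fun p bm => neg bm fun bp => elim b p bp bm t fun t' =>
      Bool.rec (elimAll b p bp bm rs (k t')) true (allZ t'))

noncomputable def go (n : Nat) : List V → List V → V → V → Bool :=
  Nat.rec (fun _ _ _ _ => false)
    (fun _ ih xs ys tx ty => List.rec false (fun a xs' _ => List.rec false (fun b ys' _ =>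
      Bool.rec (Bool.rec
        (Bool.rec false
          (branch b ty ys' fun t q => ih xs' q tx t)
          (branch a tx xs' fun t q => ih q ys' t ty))
        (ih xs' ys' tx ty) (allZ b)) (ih xs' ys' tx ty) (allZ a)) ys) xs) n

noncomputable def run (l : List Bool) : List V → List V → V → V → Bool :=
  List.rec (go 20) (fun s _ ih xs ys tx ty =>
    List.rec false (fun a xs' _ => List.rec false (fun b ys' _ =>
      Bool.rec (branch b ty ys' fun t q => ih xs' q tx t)
        (branch a tx xs' fun t q => ih q ys' t ty) s) ys) xs) l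

/-! ### Soundness -/

def dot : V → List ℂ → ℂ
  | .nil, _ => 0
  | .z _, [] => 0
  | .p _ _, [] => 0
  | .m _ _, [] => 0
  | .z t, _ :: X => dot t X
  | .p n t, x :: X => ((n : ℂ) + 1) * x + dot t X
  | .m n t, x :: X => -((n : ℂ) + 1) * x + dot t X

@[simp] lemma dot_nil (X : List ℂ) : dot .nil X = 0 := by cases X <;> rfl
@[simp] lemma dot_empty (r : V) : dot r [] = 0 := by cases r <;> rfl
@[simp] lemma dot_z (t : V) (x : ℂ) (X : List ℂ) : dot (.z t) (x :: X) = dot t X := rfl
@[simp] lemma dot_p (n : ℕ) (t : V) (x : ℂ) (X : List ℂ) :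
    dot (.p n t) (x :: X) = ((n : ℂ) + 1) * x + dot t X := rfl
@[simp] lemma dot_m (n : ℕ) (t : V) (x : ℂ) (X : List ℂ) :
    dot (.m n t) (x :: X) = -((n : ℂ) + 1) * x + dot t X := rfl

/-- `f` pushes the entry `u` -/
def Push (f : V → V) (u : ℂ) : Prop := ∀ t x X, dot (f t) (x :: X) = u * x + dot t X

lemma posK_sound {u : ℕ} {k : (V → V) → Bool} (h : posK u k = true) :
    ∃ f, k f = true ∧ Push f u := by
  cases u with
  | zero => exact ⟨V.z, h, fun t x X => by simp⟩
  | succ d => exact ⟨V.p d, h, fun t x X => by simp⟩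

lemma negK_sound {u : ℕ} {k : (V → V) → Bool} (h : negK u k = true) :
    ∃ f, k f = true ∧ Push f (-u) := by
  cases u with
  | zero => exact ⟨V.z, h, fun t x X => by simp⟩
  | succ d => exact ⟨V.m d, h, fun t x X => by simp⟩

lemma difK_sound {u v : ℕ} {k : (V → V) → Bool} (h : difK u v k = true) :
    ∃ f, k f = true ∧ Push f (u - v) := by
  unfold difK at h
  generalize hd : Nat.sub u v = d at h
  cases d with
  | zero =>
    obtain ⟨f, h1, h2⟩ := negK_sound (u := Nat.sub v u) h
    refine ⟨f, h1, ?_⟩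
    have hle : u ≤ v := Nat.sub_eq_zero_iff_le.mp hd
    have : ((Nat.sub v u : ℕ) : ℂ) = v - u := Nat.cast_sub hle
    rw [this] at h2
    simpa using h2
  | succ d =>
    refine ⟨V.p d, h, fun t x X => ?_⟩
    have hd' : u - v = d + 1 := hd
    have : u = v + (d + 1) := by omega
    subst this
    simp

lemma add_sound (a c : ℕ) : ∀ (r b : V) (k : V → Bool), add a c r b k = true →
    ∃ r', k r' = true ∧ ∀ X, dot r' X = a * dot r X + c * dot b X := by
  intro r
  induction r with
  | nil =>
    intro b k h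
    cases b with
    | nil => exact ⟨V.nil, h, fun X => by simp⟩
    | z _ => exact absurd h (by simp [add])
    | p _ _ => exact absurd h (by simp [add])
    | m _ _ => exact absurd h (by simp [add])
  | z r ih =>
    intro b k h
    cases b with
    | nil => exact absurd h (by simp [add])
    | z b =>
      obtain ⟨t, h1, h2⟩ := ih b _ h
      refine ⟨_, h1, fun X => ?_⟩
      cases X <;> simp [h2]
    | p y b =>
      obtain ⟨f, h0, hf⟩ := posK_sound (k := fun f => add a c r b fun t => k (f t))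
        (u := Nat.mul c (Nat.succ y)) h
      obtain ⟨t, h1, h2⟩ := ih b _ h0
      refine ⟨_, h1, fun X => ?_⟩
      cases X with
      | nil => simp
      | cons x X => rw [hf, h2]; simp; ring
    | m y b =>
      obtain ⟨f, h0, hf⟩ := negK_sound (k := fun f => add a c r b fun t => k (f t))
        (u := Nat.mul c (Nat.succ y)) h
      obtain ⟨t, h1, h2⟩ := ih b _ h0
      refine ⟨_, h1, fun X => ?_⟩
      cases X with
      | nil => simp
      | cons x X => rw [hf, h2]; simp; ring
  | p x r ih =>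
    intro b k h
    cases b with
    | nil => exact absurd h (by simp [add])
    | z b =>
      obtain ⟨f, h0, hf⟩ := posK_sound (k := fun f => add a c r b fun t => k (f t))
        (u := Nat.mul a (Nat.succ x)) h
      obtain ⟨t, h1, h2⟩ := ih b _ h0
      refine ⟨_, h1, fun X => ?_⟩
      cases X with
      | nil => simp
      | cons x X => rw [hf, h2]; simp; ring
    | p y b =>
      obtain ⟨f, h0, hf⟩ := posK_sound (k := fun f => add a c r b fun t => k (f t))
        (u := Nat.add (Nat.mul a (Nat.succ x)) (Nat.mul c (Nat.succ y))) h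
      obtain ⟨t, h1, h2⟩ := ih b _ h0
      refine ⟨_, h1, fun X => ?_⟩
      cases X with
      | nil => simp
      | cons x X => rw [hf, h2]; simp; ring
    | m y b =>
      obtain ⟨f, h0, hf⟩ := difK_sound (k := fun f => add a c r b fun t => k (f t))
        (u := Nat.mul a (Nat.succ x)) (v := Nat.mul c (Nat.succ y)) h
      obtain ⟨t, h1, h2⟩ := ih b _ h0
      refine ⟨_, h1, fun X => ?_⟩
      cases X with
      | nil => simp
      | cons x X => rw [hf, h2]; simp; ring
  | m x r ih =>
    intro b k h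
    cases b with
    | nil => exact absurd h (by simp [add])
    | z b =>
      obtain ⟨f, h0, hf⟩ := negK_sound (k := fun f => add a c r b fun t => k (f t))
        (u := Nat.mul a (Nat.succ x)) h
      obtain ⟨t, h1, h2⟩ := ih b _ h0
      refine ⟨_, h1, fun X => ?_⟩
      cases X with
      | nil => simp
      | cons x X => rw [hf, h2]; simp; ring
    | p y b =>
      obtain ⟨f, h0, hf⟩ := difK_sound (k := fun f => add a c r b fun t => k (f t))
        (u := Nat.mul c (Nat.succ y)) (v := Nat.mul a (Nat.succ x)) h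
      obtain ⟨t, h1, h2⟩ := ih b _ h0
      refine ⟨_, h1, fun X => ?_⟩
      cases X with
      | nil => simp
      | cons x X => rw [hf, h2]; simp; ring
    | m y b =>
      obtain ⟨f, h0, hf⟩ := negK_sound (k := fun f => add a c r b fun t => k (f t))
        (u := Nat.add (Nat.mul a (Nat.succ x)) (Nat.mul c (Nat.succ y))) h
      obtain ⟨t, h1, h2⟩ := ih b _ h0
      refine ⟨_, h1, fun X => ?_⟩
      cases X with
      | nil => simp
      | cons x X => rw [hf, h2]; simp; ring

lemma neg_sound : ∀ (r : V) (k : V → Bool), neg r k = true →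
    ∃ r', k r' = true ∧ ∀ X, dot r' X = - dot r X := by
  intro r
  induction r with
  | nil => intro k h; exact ⟨V.nil, h, fun X => by simp⟩
  | z r ih =>
    intro k h
    obtain ⟨t, h1, h2⟩ := ih _ h
    refine ⟨_, h1, fun X => ?_⟩
    cases X <;> simp [h2]
  | p x r ih =>
    intro k h
    obtain ⟨t, h1, h2⟩ := ih _ h
    refine ⟨_, h1, fun X => ?_⟩
    cases X with
    | nil => simp
    | cons x X => simp [h2]; ring
  | m x r ih =>
    intro k h
    obtain ⟨t, h1, h2⟩ := ih _ h
    refine ⟨_, h1, fun X => ?_⟩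
    cases X with
    | nil => simp
    | cons x X => simp [h2]; ring

def drop : V → List ℂ → List ℂ
  | .nil, X => X
  | .z _, [] => []
  | .p _ _, [] => []
  | .m _ _, [] => []
  | .z t, x :: X => x :: drop t X
  | .p _ _, _ :: X => X
  | .m _ _, _ :: X => X

def pv : V → List ℂ → ℂ
  | .nil, _ => 0
  | .z _, [] => 0
  | .p _ _, [] => 0
  | .m _ _, [] => 0
  | .z t, _ :: X => pv t X
  | .p _ _, x :: _ => x
  | .m _ _, x :: _ => x

lemma pull_sound : ∀ (b r : V) (k0 : V → Bool) (kp km : ℕ → V → Bool),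
    pull b r k0 kp km = true →
    ∃ (t : V) (u : ℂ), (∀ X, dot r X = u * pv b X + dot t (drop b X)) ∧
      ((k0 t = true ∧ u = 0) ∨ (∃ q : ℕ, kp q t = true ∧ u = q + 1) ∨
        (∃ q : ℕ, km q t = true ∧ u = -(q + 1))) := by
  intro b
  induction b with
  | nil => intro r k0 kp km h; exact absurd h (by simp [pull])
  | z b ih =>
    intro r k0 kp km h
    cases r with
    | nil => exact absurd h (by simp [pull])
    | z r =>
      obtain ⟨t, u, h1, h2⟩ := ih r _ _ _ h
      refine ⟨V.z t, u, fun X => ?_, h2⟩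
      cases X <;> simp [drop, pv, h1]
    | p x r =>
      obtain ⟨t, u, h1, h2⟩ := ih r _ _ _ h
      refine ⟨V.p x t, u, fun X => ?_, h2⟩
      cases X with
      | nil => simp [drop, pv]
      | cons x X => simp [drop, pv, h1]; ring
    | m x r =>
      obtain ⟨t, u, h1, h2⟩ := ih r _ _ _ h
      refine ⟨V.m x t, u, fun X => ?_, h2⟩
      cases X with
      | nil => simp [drop, pv]
      | cons x X => simp [drop, pv, h1]; ring
  | p y b _ =>
    intro r k0 kp km h
    cases r with
    | nil => exact absurd h (by simp [pull])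
    | z r =>
      refine ⟨r, 0, fun X => ?_, Or.inl ⟨h, rfl⟩⟩
      cases X <;> simp [drop, pv]
    | p x r =>
      refine ⟨r, _, fun X => ?_, Or.inr (Or.inl ⟨x, h, rfl⟩)⟩
      cases X <;> simp [drop, pv]
    | m x r =>
      refine ⟨r, _, fun X => ?_, Or.inr (Or.inr ⟨x, h, rfl⟩)⟩
      cases X <;> simp [drop, pv]
  | m y b _ =>
    intro r k0 kp km h
    cases r with
    | nil => exact absurd h (by simp [pull])
    | z r =>
      refine ⟨r, 0, fun X => ?_, Or.inl ⟨h, rfl⟩⟩
      cases X <;> simp [drop, pv]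
    | p x r =>
      refine ⟨r, _, fun X => ?_, Or.inr (Or.inl ⟨x, h, rfl⟩)⟩
      cases X <;> simp [drop, pv]
    | m x r =>
      refine ⟨r, _, fun X => ?_, Or.inr (Or.inr ⟨x, h, rfl⟩)⟩
      cases X <;> simp [drop, pv]

lemma frc_sound {n : ℕ} {k : ℕ → Bool} (h : frc n k = true) : n ≠ 0 ∧ k n = true := by
  cases n with
  | zero => exact absurd h (by simp [frc])
  | succ d => exact ⟨Nat.succ_ne_zero d, h⟩

lemma cross (p q : ℕ) :
    ((Nat.div (Nat.succ p) (Nat.gcd (Nat.succ p) (Nat.succ q)) : ℕ) : ℂ) * ((q : ℂ) + 1) =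
    ((Nat.div (Nat.succ q) (Nat.gcd (Nat.succ p) (Nat.succ q)) : ℕ) : ℂ) * ((p : ℂ) + 1) := by
  have h : (p + 1) / Nat.gcd (p + 1) (q + 1) * (q + 1) =
      (q + 1) / Nat.gcd (p + 1) (q + 1) * (p + 1) := by
    obtain ⟨a, ha⟩ := Nat.gcd_dvd_left (p + 1) (q + 1)
    obtain ⟨c, hc⟩ := Nat.gcd_dvd_right (p + 1) (q + 1)
    have hg : 0 < Nat.gcd (p + 1) (q + 1) := Nat.gcd_pos_of_pos_left _ (Nat.succ_pos p)
    generalize Nat.gcd (p + 1) (q + 1) = g at *
    rw [ha, hc, Nat.mul_div_cancel_left _ hg, Nat.mul_div_cancel_left _ hg]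
    ring
  have h' := congrArg (Nat.cast : ℕ → ℂ) h
  push_cast at h'
  exact h'

lemma elim_sound {b : V} {p : ℕ} {bp bm r : V} {k : V → Bool} (X : List ℂ)
    (hb : ((p : ℂ) + 1) * pv b X + dot bp (drop b X) = 0)
    (hm : dot bm (drop b X) = - dot bp (drop b X))
    (h : elim b p bp bm r k = true) :
    ∃ (r' : V) (a : ℂ), a ≠ 0 ∧ k r' = true ∧ dot r' (drop b X) = a * dot r X := by
  obtain ⟨t, u, h1, h2⟩ := pull_sound _ _ _ _ _ h
  rcases h2 with ⟨h2, rfl⟩ | ⟨q, h2, rfl⟩ | ⟨q, h2, rfl⟩
  · exact ⟨t, 1, one_ne_zero, h2, by rw [h1]; ring⟩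
  · obtain ⟨-, h3⟩ := frc_sound h2
    obtain ⟨ha, h4⟩ := frc_sound h3
    obtain ⟨-, h5⟩ := frc_sound h4
    obtain ⟨r', h6, h7⟩ := add_sound _ _ _ _ _ h5
    refine ⟨r', _, Nat.cast_ne_zero.mpr ha, h6, ?_⟩
    rw [h7, h1, hm]
    have hc := cross p q
    linear_combination (-(pv b X)) * hc -
      ((Nat.div (Nat.succ q) (Nat.gcd (Nat.succ p) (Nat.succ q)) : ℕ) : ℂ) * hb
  · obtain ⟨-, h3⟩ := frc_sound h2
    obtain ⟨ha, h4⟩ := frc_sound h3
    obtain ⟨-, h5⟩ := frc_sound h4
    obtain ⟨r', h6, h7⟩ := add_sound _ _ _ _ _ h5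
    refine ⟨r', _, Nat.cast_ne_zero.mpr ha, h6, ?_⟩
    rw [h7, h1]
    have hc := cross p q
    linear_combination (pv b X) * hc +
      ((Nat.div (Nat.succ q) (Nat.gcd (Nat.succ p) (Nat.succ q)) : ℕ) : ℂ) * hb

lemma allZ_sound : ∀ (b : V) (X : List ℂ), allZ b = true → dot b X = 0 := by
  intro b
  induction b with
  | nil => intro X _; simp
  | z b ih => intro X h; cases X with
    | nil => simp
    | cons x X => simpa using ih X h
  | p _ _ _ => intro X h; exact absurd h (by simp [allZ])
  | m _ _ _ => intro X h; exact absurd h (by simp [allZ])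

lemma elimAll_sound {b : V} {p : ℕ} {bp bm : V} (X : List ℂ)
    (hb : ((p : ℂ) + 1) * pv b X + dot bp (drop b X) = 0)
    (hm : dot bm (drop b X) = - dot bp (drop b X)) :
    ∀ (rs : List V) (k : List V → Bool), elimAll b p bp bm rs k = true →
    ∃ rs', k rs' = true ∧
      List.Forall₂ (fun r r' => dot r X = 0 → dot r' (drop b X) = 0) rs rs' := by
  intro rs
  induction rs with
  | nil => intro k h; exact ⟨[], h, List.Forall₂.nil⟩
  | cons r rs ih =>
    intro k h
    obtain ⟨r', a, -, h1, h2⟩ := elim_sound X hb hm (r := r) h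
    obtain ⟨t, h3, h4⟩ := ih _ h1
    exact ⟨r' :: t, h3, List.Forall₂.cons (fun h0 => by rw [h2, h0, mul_zero]) h4⟩

lemma branch_sound {b t : V} {rs : List V} {k : V → List V → Bool} (X : List ℂ)
    (hb : dot b X = 0) (ht : dot t X ≠ 0) (h : branch b t rs k = true) :
    ∃ (t' : V) (rs' : List V) (X' : List ℂ), k t' rs' = true ∧ dot t' X' ≠ 0 ∧
      List.Forall₂ (fun r r' => dot r X = 0 → dot r' X' = 0) rs rs' := by
  have key : ∀ (p : ℕ) (bp bm : V), ((p : ℂ) + 1) * pv b X + dot bp (drop b X) = 0 →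
      dot bm (drop b X) = - dot bp (drop b X) →
      (elim b p bp bm t fun t' =>
        Bool.rec (elimAll b p bp bm rs (k t')) true (allZ t')) = true →
      ∃ (t' : V) (rs' : List V) (X' : List ℂ), k t' rs' = true ∧ dot t' X' ≠ 0 ∧
        List.Forall₂ (fun r r' => dot r X = 0 → dot r' X' = 0) rs rs' := by
    intro p bp bm h1 h2 h3
    obtain ⟨t', a, ha, h4, h5⟩ := elim_sound X h1 h2 h3
    have hne : dot t' (drop b X) ≠ 0 := by rw [h5]; exact mul_ne_zero ha ht
    cases hz : allZ t' with
    | true => exact absurd (allZ_sound _ _ hz) hne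
    | false =>
      rw [hz] at h4
      obtain ⟨rs', h6, h7⟩ := elimAll_sound X h1 h2 rs _ h4
      exact ⟨t', rs', _, h6, hne, h7⟩
  obtain ⟨c, u, h1, h2⟩ := pull_sound _ _ _ _ _ h
  rcases h2 with ⟨h2, -⟩ | ⟨q, h2, rfl⟩ | ⟨q, h2, rfl⟩
  · exact absurd h2 (by simp)
  · obtain ⟨bm, h3, h4⟩ := neg_sound _ _ h2
    exact key q c bm (by rw [← h1, hb]) (h4 _) h3
  · obtain ⟨bp, h3, h4⟩ := neg_sound _ _ h2
    refine key q bp c ?_ (by rw [h4]; ring) h3
    rw [h4]
    have := h1 X
    rw [hb] at this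
    linear_combination this

def Cov (X Y : List ℂ) (xs ys : List V) : Prop :=
  List.Forall₂ (fun a b => dot a X = 0 ∨ dot b Y = 0) xs ys

lemma Cov.left {X X' Y : List ℂ} : ∀ {xs xs' ys : List V},
    List.Forall₂ (fun r r' => dot r X = 0 → dot r' X' = 0) xs xs' →
    Cov X Y xs ys → Cov X' Y xs' ys := by
  intro xs xs' ys h
  induction h generalizing ys with
  | nil => intro h; cases h; exact List.Forall₂.nil
  | cons h1 _ ih =>
    intro h
    cases h with
    | cons h3 h4 => exact List.Forall₂.cons (h3.imp_left h1) (ih h4)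

lemma Cov.right {X Y Y' : List ℂ} : ∀ {xs ys ys' : List V},
    List.Forall₂ (fun r r' => dot r Y = 0 → dot r' Y' = 0) ys ys' →
    Cov X Y xs ys → Cov X Y' xs ys' := by
  intro xs ys ys' h
  induction h generalizing xs with
  | nil => intro h; cases h; exact List.Forall₂.nil
  | cons h1 _ ih =>
    intro h
    cases h with
    | cons h3 h4 => exact List.Forall₂.cons (h3.imp_right h1) (ih h4)

lemma go_sound : ∀ (n : ℕ) (xs ys : List V) (tx ty : V) (X Y : List ℂ),
    go n xs ys tx ty = true → dot tx X ≠ 0 → dot ty Y ≠ 0 → Cov X Y xs ys → False := by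
  intro n
  induction n with
  | zero => intro xs ys tx ty X Y h; exact absurd h (by simp [go])
  | succ n ih =>
    intro xs ys tx ty X Y h hx hy hc
    cases hc with
    | nil => exact absurd h (by simp [go])
    | @cons a b xs ys h1 h2 =>
      have h' : (Bool.rec (Bool.rec (Bool.rec false
          (branch b ty ys fun t q => go n xs q tx t)
          (branch a tx xs fun t q => go n q ys t ty))
        (go n xs ys tx ty) (allZ b)) (go n xs ys tx ty) (allZ a) : Bool) = true := h
      cases ha : allZ a with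
      | true => rw [ha] at h'; exact ih _ _ _ _ X Y h' hx hy h2
      | false =>
        rw [ha] at h'
        cases hb : allZ b with
        | true => rw [hb] at h'; exact ih _ _ _ _ X Y h' hx hy h2
        | false =>
          rw [hb] at h'
          cases hA : (branch a tx xs fun t q => go n q ys t ty) with
          | false => rw [hA] at h'; exact absurd h' (by simp)
          | true =>
            rw [hA] at h'
            rcases h1 with h1 | h1
            · obtain ⟨t', rs', X', h3, h4, h5⟩ := branch_sound X h1 hx hA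
              exact ih _ _ _ _ X' Y h3 h4 hy (Cov.left h5 h2)
            · obtain ⟨t', rs', Y', h3, h4, h5⟩ := branch_sound Y h1 hy h'
              exact ih _ _ _ _ X Y' h3 hx h4 (Cov.right h5 h2)

/-- covering where the first vectors are assigned as the list of booleans says -/
def Asg (X Y : List ℂ) : List Bool → List V → List V → Prop
  | [], xs, ys => Cov X Y xs ys
  | true :: l, a :: xs, _ :: ys => dot a X = 0 ∧ Asg X Y l xs ys
  | false :: l, _ :: xs, b :: ys => dot b Y = 0 ∧ Asg X Y l xs ys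
  | _ :: _, [], _ => True
  | _ :: _, _ :: _, [] => True

lemma Asg.left {X X' Y : List ℂ} : ∀ {l : List Bool} {xs xs' ys : List V},
    List.Forall₂ (fun r r' => dot r X = 0 → dot r' X' = 0) xs xs' →
    Asg X Y l xs ys → Asg X' Y l xs' ys := by
  intro l
  induction l with
  | nil => intro xs xs' ys h h'; exact Cov.left h h'
  | cons s l ih =>
    intro xs xs' ys h h'
    cases h with
    | nil => cases s <;> trivial
    | cons h1 h2 =>
      cases ys with
      | nil => cases s <;> trivial
      | cons b ys =>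
        cases s with
        | true => exact ⟨h1 h'.1, ih h2 h'.2⟩
        | false => exact ⟨h'.1, ih h2 h'.2⟩

lemma Asg.right {X Y Y' : List ℂ} : ∀ {l : List Bool} {xs ys ys' : List V},
    List.Forall₂ (fun r r' => dot r Y = 0 → dot r' Y' = 0) ys ys' →
    Asg X Y l xs ys → Asg X Y' l xs ys' := by
  intro l
  induction l with
  | nil => intro xs ys ys' h h'; exact Cov.right h h'
  | cons s l ih =>
    intro xs ys ys' h h'
    cases xs with
    | nil => cases s <;> trivial
    | cons a xs =>
      cases h with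
      | nil => cases s <;> trivial
      | cons h1 h2 =>
        cases s with
        | true => exact ⟨h'.1, ih h2 h'.2⟩
        | false => exact ⟨h1 h'.1, ih h2 h'.2⟩

lemma run_sound : ∀ (l : List Bool) (xs ys : List V) (tx ty : V) (X Y : List ℂ),
    run l xs ys tx ty = true → dot tx X ≠ 0 → dot ty Y ≠ 0 → Asg X Y l xs ys → False := by
  intro l
  induction l with
  | nil => intro xs ys tx ty X Y h hx hy hc; exact go_sound 20 _ _ _ _ X Y h hx hy hc
  | cons s l ih =>
    intro xs ys tx ty X Y h hx hy hc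
    cases xs with
    | nil => exact absurd h (by simp [run])
    | cons a xs =>
      cases ys with
      | nil => exact absurd h (by simp [run])
      | cons b ys =>
        cases s with
        | true =>
          have h' : (branch a tx xs fun t q => run l q ys t ty) = true := h
          obtain ⟨t', rs', X', h3, h4, h5⟩ := branch_sound X hc.1 hx h'
          exact ih _ _ _ _ X' Y h3 h4 hy (Asg.left h5 hc.2)
        | false =>
          have h' : (branch b ty ys fun t q => run l xs q tx t) = true := h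
          obtain ⟨t', rs', Y', h3, h4, h5⟩ := branch_sound Y hc.1 hy h'
          exact ih _ _ _ _ X Y' h3 hx h4 (Asg.right h5 hc.2)

lemma exists_asg (X Y : List ℂ) : ∀ (n : ℕ) (xs ys : List V), Cov X Y xs ys →
    ∃ l : List Bool, l.length = n ∧ Asg X Y l xs ys := by
  intro n
  induction n with
  | zero => intro xs ys h; exact ⟨[], rfl, h⟩
  | succ n ih =>
    intro xs ys h
    cases h with
    | nil => exact ⟨true :: List.replicate n true, by simp, trivial⟩
    | cons h1 h2 =>
      obtain ⟨l, hl, h3⟩ := ih _ _ h2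
      rcases h1 with h1 | h1
      · exact ⟨true :: l, by simp [hl], h1, h3⟩
      · exact ⟨false :: l, by simp [hl], h1, h3⟩

def pts : List V := [(V.p 0 (V.z (V.z (V.z (V.z (V.z (V.p 0 (V.p 0 (V.z (V.z V.nil)))))))))),
  (V.m 0 (V.z (V.z (V.z (V.z (V.z (V.p 0 (V.p 0 (V.z (V.z V.nil)))))))))),
  (V.z (V.p 0 (V.z (V.z (V.z (V.z (V.p 0 (V.z (V.p 0 (V.z V.nil)))))))))),
  (V.z (V.m 0 (V.z (V.z (V.z (V.z (V.p 0 (V.z (V.p 0 (V.z V.nil)))))))))),
  (V.z (V.z (V.p 0 (V.z (V.z (V.z (V.p 0 (V.z (V.z (V.p 0 V.nil)))))))))),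
  (V.z (V.z (V.m 0 (V.z (V.z (V.z (V.p 0 (V.z (V.z (V.p 0 V.nil)))))))))),
  (V.z (V.z (V.z (V.p 0 (V.z (V.z (V.z (V.p 0 (V.p 0 (V.z V.nil)))))))))),
  (V.z (V.z (V.z (V.m 0 (V.z (V.z (V.z (V.p 0 (V.p 0 (V.z V.nil)))))))))),
  (V.z (V.z (V.z (V.z (V.p 0 (V.z (V.z (V.p 0 (V.z (V.p 0 V.nil)))))))))),
  (V.z (V.z (V.z (V.z (V.m 0 (V.z (V.z (V.p 0 (V.z (V.p 0 V.nil)))))))))),
  (V.z (V.z (V.z (V.z (V.z (V.p 0 (V.z (V.z (V.p 0 (V.p 0 V.nil)))))))))),
  (V.z (V.z (V.z (V.z (V.z (V.m 0 (V.z (V.z (V.p 0 (V.p 0 V.nil)))))))))),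
  (V.p 1 (V.p 2 (V.m 7 (V.p 5 (V.m 15 (V.m 23 (V.p 0 (V.p 3 (V.p 8 (V.p 63 V.nil)))))))))),
  (V.p 1 (V.m 2 (V.p 7 (V.m 5 (V.p 15 (V.m 23 (V.p 0 (V.p 3 (V.p 8 (V.p 63 V.nil)))))))))),
  (V.m 1 (V.p 2 (V.p 7 (V.m 5 (V.m 15 (V.p 23 (V.p 0 (V.p 3 (V.p 8 (V.p 63 V.nil)))))))))),
  (V.m 1 (V.m 2 (V.m 7 (V.p 5 (V.p 15 (V.p 23 (V.p 0 (V.p 3 (V.p 8 (V.p 63 V.nil)))))))))),
  (V.p 2020 (V.p 2278 (V.p 4170 (V.p 2490 (V.p 4558 (V.p 5140 (V.p 1848 (V.p 2208 (V.p 2808 (V.p 9408 V.nil)))))))))),
  (V.p 2020 (V.m 2278 (V.m 4170 (V.m 2490 (V.m 4558 (V.p 5140 (V.p 1848 (V.p 2208 (V.p 2808 (V.p 9408 V.nil)))))))))),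
  (V.m 2020 (V.p 2278 (V.m 4170 (V.m 2490 (V.p 4558 (V.m 5140 (V.p 1848 (V.p 2208 (V.p 2808 (V.p 9408 V.nil)))))))))),
  (V.m 2020 (V.m 2278 (V.p 4170 (V.p 2490 (V.m 4558 (V.m 5140 (V.p 1848 (V.p 2208 (V.p 2808 (V.p 9408 V.nil))))))))))]

def tr : V := (V.z (V.z (V.z (V.z (V.z (V.z (V.p 0 (V.p 0 (V.p 0 (V.p 0 V.nil))))))))))

end Vale.Agent.P372.Dfs
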