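import Vale.Agent.P372.Power
import Vale.Agent.P372.Cover

/-! The explicit entangled state. -/

open scoped ComplexOrder MatrixOrder Kronecker ENNReal
open Matrix

namespace Vale.Agent.P372

def tens {A B : Type} (u : A → ℂ) (v : B → ℂ) : A × B → ℂ := fun x => u x.1 * v x.2

lemma star_tens {A B : Type} (u : A → ℂ) (v : B → ℂ) : star (tens u v) = tens (star u) (star v) := by
  funext x
  simp [tens]

lemma tens_vecMul {A B D D' : Type} [Fintype A] [Fintype B] (u : A → ℂ) (v : B → ℂ)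
    (M : Matrix A D ℂ) (N : Matrix B D' ℂ) :
    tens u v ᵥ* (M ⊗ₖ N) = tens (u ᵥ* M) (v ᵥ* N) := by
  funext ⟨d, e⟩
  simp only [vecMul, dotProduct, tens, Fintype.sum_prod_type, kroneckerMap_apply,
    Finset.sum_mul_sum]
  exact Finset.sum_congr rfl fun _ _ => Finset.sum_congr rfl fun _ _ => by ring

lemma tens_dot {A B : Type} [Fintype A] [Fintype B] (u u' : A → ℂ) (v v' : B → ℂ) :
    tens u v ⬝ᵥ tens u' v' = (u ⬝ᵥ u') * (v ⬝ᵥ v') := by
  simp only [dotProduct, tens, Fintype.sum_prod_type, Finset.sum_mul_sum]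
  exact Finset.sum_congr rfl fun _ _ => Finset.sum_congr rfl fun _ _ => by ring

lemma quad_kron {A B : Type} [Fintype A] [Fintype B] (u : A → ℂ) (v : B → ℂ)
    (M : Matrix A A ℂ) (N : Matrix B B ℂ) :
    star (tens u v) ⬝ᵥ ((M ⊗ₖ N) *ᵥ tens u v) = (star u ⬝ᵥ (M *ᵥ u)) * (star v ⬝ᵥ (N *ᵥ v)) := by
  rw [dotProduct_mulVec, star_tens, tens_vecMul, tens_dot, dotProduct_mulVec, dotProduct_mulVec]

lemma sep_lemma {dA dB : ℕ} {ρ : Matrix (Fin dA × Fin dB) (Fin dA × Fin dB) ℂ} (h : Separable ρ)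
    {P : Type} (S : Set P) (u : P → Fin dA → ℂ) (v : P → Fin dB → ℂ) (t : Fin dA → ℂ)
    (t' : Fin dB → ℂ)
    (h0 : ∀ p ∈ S, star (tens (u p) (v p)) ⬝ᵥ (ρ *ᵥ tens (u p) (v p)) = 0)
    (hc : ∀ (X : Fin dA → ℂ) (Y : Fin dB → ℂ), (∀ p ∈ S, X ⬝ᵥ u p = 0 ∨ Y ⬝ᵥ v p = 0) →
      X ⬝ᵥ t = 0 ∨ Y ⬝ᵥ t' = 0) :
    star (tens t t') ⬝ᵥ (ρ *ᵥ tens t t') = 0 := by
  obtain ⟨m, w, α, β, hw, -, hα, hβ, rfl⟩ := h
  simp only [sum_mulVec, dotProduct_sum, smul_mulVec, dotProduct_smul, quad_kron, smul_eq_mul]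
    at h0 ⊢
  refine Finset.sum_eq_zero fun i _ => ?_
  by_cases hi : w i = 0
  · simp [hi]
  have h1 : ∀ p ∈ S, α i *ᵥ u p = 0 ∨ β i *ᵥ v p = 0 := by
    intro p hp
    have h2 := (Finset.sum_eq_zero_iff_of_nonneg (fun j _ => mul_nonneg
      (by exact_mod_cast hw j : (0 : ℂ) ≤ w j)
      (mul_nonneg ((hα j).1.dotProduct_mulVec_nonneg (u p))
        ((hβ j).1.dotProduct_mulVec_nonneg (v p))))).mp (h0 p hp) i (Finset.mem_univ i)
    rcases mul_eq_zero.mp h2 with h3 | h3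
    · exact absurd (by exact_mod_cast h3) hi
    · rcases mul_eq_zero.mp h3 with h4 | h4
      · exact Or.inl (((hα i).1.dotProduct_mulVec_zero_iff _).mp h4)
      · exact Or.inr (((hβ i).1.dotProduct_mulVec_zero_iff _).mp h4)
  have h5 : α i *ᵥ t = 0 ∨ β i *ᵥ t' = 0 := by
    by_contra hne
    push Not at hne
    obtain ⟨x, hx⟩ := Function.ne_iff.mp hne.1
    obtain ⟨y, hy⟩ := Function.ne_iff.mp hne.2
    rcases hc (α i x) (β i y) (fun p hp => (h1 p hp).imp (fun h => congrFun h x)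
      (fun h => congrFun h y)) with h6 | h6
    · exact hx h6
    · exact hy h6
  rcases h5 with h5 | h5 <;> simp [h5]

lemma quad_st {A D ι : Type} [Fintype A] [Fintype D] [Fintype ι] (K : ι → Matrix A D ℂ)
    (γ : D → ℂ) (U : A → ℂ) :
    star U ⬝ᵥ (st K γ *ᵥ U) =
      ∑ a, ((star U ᵥ* K a) ⬝ᵥ γ) * star ((star U ᵥ* K a) ⬝ᵥ γ) := by
  simp only [st, sum_mulVec, dotProduct_sum, ← dotProduct_mulVec]
  refine Finset.sum_congr rfl fun a _ => ?_
  generalize K a *ᵥ γ = w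
  simp only [proj, dotProduct, mulVec, vecMulVec_apply, star_sum,
    Finset.mul_sum, Finset.sum_mul, Pi.star_apply, star_mul', star_star]
  rw [Finset.sum_comm]
  exact Finset.sum_congr rfl fun _ _ => Finset.sum_congr rfl fun _ _ => by ring

lemma st_psd {A D ι : Type} [Fintype A] [Fintype D] [Fintype ι] (K : ι → Matrix A D ℂ)
    (γ : D → ℂ) : (st K γ).PosSemidef :=
  posSemidef_sum _ fun _ _ => posSemidef_vecMulVec_self_star _

lemma st_smul {A D ι : Type} [Fintype A] [Fintype D] [Fintype ι] (K : ι → Matrix A D ℂ)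
    (γ : D → ℂ) (c : ℝ) : st K ((c : ℂ) • γ) = ((c : ℂ) * c) • st K γ := by
  ext x y
  simp only [st, proj, Matrix.sum_apply, Matrix.smul_apply, vecMulVec_apply, mulVec_smul,
    Pi.smul_apply, Pi.star_apply, smul_eq_mul, star_mul', Finset.mul_sum, Complex.star_def,
    Complex.conj_ofReal]
  exact Finset.sum_congr rfl fun _ _ => by ring

lemma st_purif {dA dB : ℕ} {D ι : Type} [Fintype D] [Fintype ι]
    (K : ι → Matrix (Fin dA × Fin dB) D ℂ) (γ : D → ℂ) :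
    ∃ (dE : ℕ) (ψ : (Fin dA × Fin dB) × Fin dE → ℂ), IsPurification ψ (st K γ) := by
  refine ⟨Fintype.card ι, fun x => (K ((Fintype.equivFin ι).symm x.2) *ᵥ γ) x.1, ?_⟩
  ext s s'
  simp only [traceSnd, proj, st, vecMulVec_apply, Matrix.sum_apply, Pi.star_apply]
  exact Equiv.sum_comp (Fintype.equivFin ι).symm fun a => (K a *ᵥ γ) s * star ((K a *ᵥ γ) s')

/-! ### The data -/

def kr : Fin 7 → Fin 4 → Fin 4 → ℤ :=
  ![![![0,1,0,0],![1,0,0,0],![0,0,0,1],![0,0,1,0]],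
    ![![0,0,1,0],![0,0,0,1],![1,0,0,0],![0,1,0,0]],
    ![![0,0,0,1],![0,0,1,0],![0,1,0,0],![1,0,0,0]],
    ![![97,0,0,0],![0,97,0,0],![0,0,97,0],![0,0,0,37]],
    ![![776,0,0,0],![0,0,0,0],![0,0,0,0],![0,0,0,43]],
    ![![0,0,0,0],![0,776,0,0],![0,0,0,0],![0,0,0,94]],
    ![![0,0,0,0],![0,0,0,0],![0,0,776,0],![0,0,0,159]]]

def wt : Fin 7 → ℕ := ![4031304868, 4031304868, 4031304868, 428452, 74730, 34185, 20210]

lemma kr_sym : ∀ x x' d d', ∑ a, (wt a : ℤ) * kr a x d * kr a x' d' =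
    ∑ a, (wt a : ℤ) * kr a x d' * kr a x' d := by decide +kernel

def vecZ (p : ℤ × ℤ × ℤ × ℤ) : Fin 4 → ℤ := ![p.1, p.2.1, p.2.2.1, p.2.2.2]

lemma vec_eq (p : ℤ × ℤ × ℤ × ℤ) (i : Fin 4) : vec p i = vecZ p i := by
  fin_cases i <;> rfl

lemma kr_ker : ∀ p ∈ ptL, ∃ z ∈ ptL, (∃ j, vecZ z j ≠ 0) ∧
    ∀ a, ∑ j, (∑ i, vecZ p i * kr a i j) * vecZ z j = 0 := by decide +kernel

noncomputable def Ka (a : Fin 7) : Matrix (Fin 4) (Fin 4) ℂ :=
  fun i j => (Real.sqrt (wt a) : ℂ) * kr a i j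

lemma Ka_sym : Sym Ka := by
  intro x x' d d'
  have h : ∀ d d', ∑ a, star (Ka a x d) * Ka a x' d' =
      ((∑ a, (wt a : ℤ) * kr a x d * kr a x' d' : ℤ) : ℂ) := by
    intro d d'
    push_cast
    refine Finset.sum_congr rfl fun a _ => ?_
    have : ((Real.sqrt (wt a) : ℝ) : ℂ) * (Real.sqrt (wt a) : ℝ) = (wt a : ℂ) := by
      rw [← Complex.ofReal_mul, Real.mul_self_sqrt (Nat.cast_nonneg _)]; simp
    simp only [Ka, star_mul', Complex.star_def, Complex.conj_ofReal, map_intCast]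
    linear_combination (kr a x d * kr a x' d' : ℂ) * this
  rw [h, h, kr_sym]

noncomputable def Kb (ab : Fin 7 × Fin 7) : Matrix (Fin (4 * 4)) (Fin 4 × Fin 4) ℂ :=
  (pairK Ka Ka ab).submatrix finProdFinEquiv.symm id

lemma Kb_sym : Sym Kb := fun _ _ _ _ => (Ka_sym.pair Ka_sym) _ _ _ _

def eps (a b c d : Fin 4) : ℤ :=
  (((b : ℕ) : ℤ) - (a : ℕ)) * (((c : ℕ) : ℤ) - (a : ℕ)) * (((d : ℕ) : ℤ) - (a : ℕ)) *
    (((c : ℕ) : ℤ) - (b : ℕ)) * (((d : ℕ) : ℤ) - (b : ℕ)) * (((d : ℕ) : ℤ) - (c : ℕ))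

def gam : (Fin 4 × Fin 4) × (Fin 4 × Fin 4) → ℂ := fun x => eps x.1.1 x.1.2 x.2.1 x.2.2

lemma gam_det (r : Fin 4 → Fin 4 → ℂ) :
    tens (tens (r 0) (r 1)) (tens (r 2) (r 3)) ⬝ᵥ gam = 12 * (Matrix.of r).det := by
  simp only [dotProduct, tens, gam, eps, Fintype.sum_prod_type, Fin.sum_univ_four]
  simp [Matrix.det_succ_row_zero, Fin.sum_univ_succ, Fin.succAbove]
  ring

def lift (X : Fin 4 × Fin 4 → ℂ) : Fin (4 * 4) → ℂ := fun x => X (finProdFinEquiv.symm x)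

lemma lift_vecMul (X : Fin 4 × Fin 4 → ℂ) (ab : Fin 7 × Fin 7) :
    lift X ᵥ* Kb ab = X ᵥ* (Ka ab.1 ⊗ₖ Ka ab.2) := by
  funext d
  exact Equiv.sum_comp finProdFinEquiv.symm fun x => X x * (Ka ab.1 ⊗ₖ Ka ab.2) x d

lemma dot_lift (Y : Fin (4 * 4) → ℂ) (X : Fin 4 × Fin 4 → ℂ) :
    Y ⬝ᵥ lift X = ∑ x, Y (finProdFinEquiv x) * X x := by
  rw [dotProduct, ← Equiv.sum_comp finProdFinEquiv]
  simp [lift]

def tgt : Fin 4 × Fin 4 → ℂ := fun x => if x.1 = x.2 then 1 else 0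

lemma quad_zero (p : ℤ × ℤ × ℤ × ℤ) (hp : p ∈ ptL) :
    star (tens (lift (tens (vec p) (vec p))) (lift (tens (vec p) (vec p)))) ⬝ᵥ
      (st (pairK Kb Kb) gam *ᵥ tens (lift (tens (vec p) (vec p))) (lift (tens (vec p) (vec p)))) =
      0 := by
  have hs : star (lift (tens (vec p) (vec p))) = lift (tens (vec p) (vec p)) := by
    funext x
    simp [lift, tens, vec_eq]
  rw [quad_st, star_tens, hs]
  refine Finset.sum_eq_zero fun a _ => ?_
  obtain ⟨z, -, ⟨j, hj⟩, hz⟩ := kr_ker p hp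
  have h0 : ∀ a, (vec p ᵥ* Ka a) ⬝ᵥ vec z = 0 := by
    intro a
    have h1 := congrArg (fun x : ℤ => (Real.sqrt (wt a) : ℂ) * x) (hz a)
    simp only [Int.cast_zero, mul_zero] at h1
    rw [← h1]
    push_cast
    simp only [dotProduct, vecMul, Ka, vec_eq, Finset.mul_sum, Finset.sum_mul]
    exact Finset.sum_congr rfl fun _ _ => Finset.sum_congr rfl fun _ _ => by ring
  have h2 := gam_det ![vec p ᵥ* Ka a.1.1, vec p ᵥ* Ka a.1.2, vec p ᵥ* Ka a.2.1, vec p ᵥ* Ka a.2.2]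
  have h3 : (Matrix.of ![vec p ᵥ* Ka a.1.1, vec p ᵥ* Ka a.1.2, vec p ᵥ* Ka a.2.1,
      vec p ᵥ* Ka a.2.2]).det = 0 := by
    rw [← Matrix.exists_mulVec_eq_zero_iff]
    refine ⟨vec z, fun h => hj ?_, ?_⟩
    · have := congrFun h j
      rw [vec_eq, Pi.zero_apply] at this
      exact_mod_cast this
    · funext i
      fin_cases i <;> exact h0 _
  rw [h3, mul_zero] at h2
  rw [pairK, tens_vecMul, lift_vecMul, lift_vecMul, tens_vecMul, tens_vecMul]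
  exact mul_eq_zero_of_left h2 _

lemma tgt_val : ∑ x : (Fin 4 × Fin 4) × (Fin 4 × Fin 4),
    (∑ i, kr 4 i x.1.1 * kr 0 i x.1.2) * (∑ i, kr 4 i x.2.1 * kr 0 i x.2.2) *
      eps x.1.1 x.1.2 x.2.1 x.2.2 = -800832 := by decide +kernel

lemma quad_ne : star (tens (lift tgt) (lift tgt)) ⬝ᵥ
    (st (pairK Kb Kb) gam *ᵥ tens (lift tgt) (lift tgt)) ≠ 0 := by
  have hs : star (lift tgt) = lift tgt := by
    funext x
    simp only [lift, tgt, Pi.star_apply]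
    split_ifs <;> simp
  rw [quad_st, star_tens, hs]
  intro h
  have h1 := (Finset.sum_eq_zero_iff_of_nonneg (fun a _ => mul_star_self_nonneg _)).mp h
    ((4, 0), (4, 0)) (Finset.mem_univ _)
  have h2 : (tens (lift tgt) (lift tgt) ᵥ* pairK Kb Kb ((4, 0), (4, 0))) ⬝ᵥ gam = 0 := by
    simpa using h1
  set s : ℂ := (Real.sqrt (wt 4) : ℂ) * (Real.sqrt (wt 0) : ℂ) with hsdef
  have h3 : tgt ᵥ* (Ka 4 ⊗ₖ Ka 0) = fun x => s * ((∑ i, kr 4 i x.1 * kr 0 i x.2 : ℤ) : ℂ) := by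
    funext ⟨d, e⟩
    push_cast
    simp only [vecMul, dotProduct, tgt, Fintype.sum_prod_type, ite_mul, one_mul, zero_mul,
      Finset.sum_ite_eq, Finset.mem_univ, if_true, kroneckerMap_apply, Ka, hsdef, Finset.mul_sum]
    exact Finset.sum_congr rfl fun _ _ => by ring
  rw [pairK, tens_vecMul, lift_vecMul, h3] at h2
  have h4 := congrArg (fun x : ℤ => s * s * (x : ℂ)) tgt_val
  have h5 : s * s * ((-800832 : ℤ) : ℂ) = 0 := by
    rw [← h4, ← h2]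
    simp only [dotProduct, tens, gam, Int.cast_sum, Int.cast_mul, Finset.mul_sum (a := s * s)]
    exact Finset.sum_congr rfl fun _ _ => by ring
  have h6 : s ≠ 0 := by
    refine mul_ne_zero ?_ ?_ <;>
    · rw [Complex.ofReal_ne_zero]
      exact (Real.sqrt_pos.mpr (Nat.cast_pos.mpr (by decide))).ne'
  simp [h6] at h5

theorem exists_state : ∃ γ : (Fin 4 × Fin 4) × (Fin 4 × Fin 4) → ℂ,
    IsState (st (pairK Kb Kb) γ) ∧ ¬ Separable (st (pairK Kb Kb) γ) := by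
  have hp := st_psd (pairK Kb Kb) gam
  have h0 : (st (pairK Kb Kb) gam).trace ≠ 0 := by
    intro h
    apply quad_ne
    rw [hp.trace_eq_zero_iff.mp h]
    simp
  obtain ⟨h1, h2⟩ := Complex.nonneg_iff.mp hp.trace_nonneg
  set τ := (st (pairK Kb Kb) gam).trace.re with hτ
  have h3 : (st (pairK Kb Kb) gam).trace = (τ : ℂ) := Complex.ext rfl (by simp [← h2])
  have h4 : 0 < τ := lt_of_le_of_ne h1 fun h => h0 (by rw [h3, ← h]; simp)
  have h5 : (((Real.sqrt τ)⁻¹ : ℝ) : ℂ) * ((Real.sqrt τ)⁻¹ : ℝ) = (τ : ℂ)⁻¹ := by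
    rw [← Complex.ofReal_mul, ← mul_inv, Real.mul_self_sqrt h4.le]; simp
  have h6 : (τ : ℂ) ≠ 0 := by exact_mod_cast h4.ne'
  refine ⟨(((Real.sqrt τ)⁻¹ : ℝ) : ℂ) • gam, ⟨st_psd _ _, ?_⟩, fun hsep => quad_ne ?_⟩
  · rw [st_smul, h5, trace_smul, h3, smul_eq_mul, inv_mul_cancel₀ h6]
  · have h7 := sep_lemma hsep {p | p ∈ ptL} (fun p => lift (tens (vec p) (vec p)))
      (fun p => lift (tens (vec p) (vec p))) (lift tgt) (lift tgt)
      (fun p hp => by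
        rw [st_smul, smul_mulVec, dotProduct_smul, quad_zero p hp, smul_zero])
      (fun X Y h => by
        have h8 := no_cover (fun x => X (finProdFinEquiv x)) (fun x => Y (finProdFinEquiv x))
          (fun p hp => by simpa only [dot_lift, qf, tens] using h p hp)
        rw [dot_lift, dot_lift]
        simpa [tgt, Fintype.sum_prod_type] using h8)
    rw [st_smul, h5, smul_mulVec, dotProduct_smul, smul_eq_mul] at h7
    exact (mul_eq_zero.mp h7).resolve_left (inv_ne_zero h6)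

end Vale.Agent.P372
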