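import Vale.Agent.P372.Op

/-! The geometric-mean inequality and the key inequality for doubly symmetric states. -/

open scoped ComplexOrder MatrixOrder Kronecker
open Matrix

namespace Vale.Agent.P372

section
variable {n m : Type} [Fintype n] [DecidableEq n] [Fintype m] [DecidableEq m]

lemma sq_mono {G K : Matrix n n ℂ} (hG : G.PosSemidef) (hK : K.IsHermitian)
    (h : (G * G - K * K).PosSemidef) : (G - K).PosSemidef := by
  have hD : (G - K).IsHermitian := hG.1.sub hK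
  rw [hD.posSemidef_iff_eigenvalues_nonneg]
  intro i
  have hv := hD.mulVec_eigenvectorBasis i
  have hn : (hD.eigenvectorBasis i : n → ℂ) ≠ 0 := by
    intro h0
    have := hD.eigenvectorBasis.orthonormal.ne_zero i
    apply this
    ext j
    exact congrFun h0 j
  set v : n → ℂ := (hD.eigenvectorBasis i : n → ℂ) with hvdef
  set μ : ℝ := hD.eigenvalues i with hμ
  set D := G - K with hDdef
  have hv' : D *ᵥ v = (μ : ℂ) • v := by
    rw [hv]; ext j; simp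
  have hv2 : star v ᵥ* D = (μ : ℂ) • star v := by
    have := congrArg star hv'
    rw [star_mulVec, hD.eq] at this
    rw [this]; ext j; simp
  have hK' : K = G - D := by rw [hDdef]; abel
  have e : G * G - K * K = G * D + D * G - D * D := by
    rw [hK']; noncomm_ring
  have h1 := h.dotProduct_mulVec_nonneg v
  have h2 := hG.dotProduct_mulVec_nonneg v
  have h3 : 0 < star v ⬝ᵥ v := dotProduct_star_self_pos_iff.mpr hn
  have e1 : star v ⬝ᵥ ((G * D) *ᵥ v) = μ * (star v ⬝ᵥ (G *ᵥ v)) := by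
    rw [← mulVec_mulVec, hv', mulVec_smul, dotProduct_smul, smul_eq_mul]
  have e2 : star v ⬝ᵥ ((D * G) *ᵥ v) = μ * (star v ⬝ᵥ (G *ᵥ v)) := by
    rw [← mulVec_mulVec, dotProduct_mulVec, hv2, smul_dotProduct, smul_eq_mul]
  have e3 : star v ⬝ᵥ ((D * D) *ᵥ v) = μ * (μ * (star v ⬝ᵥ v)) := by
    rw [← mulVec_mulVec, dotProduct_mulVec, hv2, smul_dotProduct, smul_eq_mul, hv',
      dotProduct_smul, smul_eq_mul]
  rw [e, sub_mulVec, add_mulVec, dotProduct_sub, dotProduct_add, e1, e2, e3] at h1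
  have h1' := (Complex.nonneg_iff.mp h1).1
  have h2' := (Complex.nonneg_iff.mp h2).1
  have h3' := (Complex.pos_iff.mp h3).1
  simp only [Complex.sub_re, Complex.add_re, Complex.re_ofReal_mul] at h1'
  by_contra hneg
  have hneg' : μ < 0 := not_le.mp hneg
  have : 0 < μ * (μ * (star v ⬝ᵥ v).re) := by
    rw [← mul_assoc]; exact mul_pos (mul_pos_of_neg_of_neg hneg' hneg') h3'
  nlinarith

lemma sq_mono' {E G W : Matrix n n ℂ} (hE : E.PosDef) (hG : G.PosSemidef) (hW : W.IsHermitian)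
    (h : (G * E * G - W * E * W).PosSemidef) : (G - W).PosSemidef := by
  set r := hE.1.cfc Real.sqrt with hr
  set r' := hE.1.cfc (fun x => (Real.sqrt x)⁻¹) with hr'
  have hrH : rᴴ = r := (fc_herm hE.1 _).eq
  have hr'H : r'ᴴ = r' := (fc_herm hE.1 _).eq
  have e1 : r * r = E := by
    rw [hr, fc_mul]
    conv_rhs => rw [← fc_id hE.1]
    exact fc_congr _ fun i => Real.mul_self_sqrt (hE.eigenvalues_pos i).le
  have e2 : r * r' = 1 := by
    rw [hr, hr', fc_mul, ← fc_one hE.1]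
    exact fc_congr _ fun i => mul_inv_cancel₀ (Real.sqrt_pos.mpr (hE.eigenvalues_pos i)).ne'
  have e3 : r' * r = 1 := by
    rw [hr, hr', fc_mul, ← fc_one hE.1]
    exact fc_congr _ fun i => inv_mul_cancel₀ (Real.sqrt_pos.mpr (hE.eigenvalues_pos i)).ne'
  have h1 : (rᴴ * G * r).PosSemidef := hG.conjTranspose_mul_mul_same r
  have h2 : (rᴴ * W * r).IsHermitian := isHermitian_conjTranspose_mul_mul r hW
  have h3 := h.conjTranspose_mul_mul_same r
  have h4 : rᴴ * (G * E * G - W * E * W) * r =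
      (rᴴ * G * r) * (rᴴ * G * r) - (rᴴ * W * r) * (rᴴ * W * r) := by
    rw [← e1, hrH]; noncomm_ring
  rw [h4] at h3
  have h5 := (sq_mono h1 h2 h3).conjTranspose_mul_mul_same r'
  have h6 : r'ᴴ * (rᴴ * G * r - rᴴ * W * r) * r' = G - W := by
    rw [hrH, hr'H]
    calc r' * (r * G * r - r * W * r) * r' = (r' * r) * (G - W) * (r * r') := by noncomm_ring
      _ = G - W := by rw [e2, e3, one_mul, mul_one]
  rwa [h6] at h5

lemma gm_posDef {A0 A1 : Matrix n n ℂ} {B0 B1 : Matrix m m ℂ} {W : Matrix (n × m) (n × m) ℂ}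
    (hA0 : A0.PosSemidef) (hB0 : B0.PosSemidef) (hA1 : A1.PosDef) (hB1 : B1.PosDef)
    (hW : W.IsHermitian) (h : (fromBlocks (A0 ⊗ₖ B0) W W (A1 ⊗ₖ B1)).PosSemidef) :
    (A0 ⊗ₖ B1 + A1 ⊗ₖ B0 - (W + W)).PosSemidef := by
  have hC : (A1 ⊗ₖ B1).PosDef := hA1.kronecker hB1
  let _ := hC.isUnit.invertible
  have h' : (fromBlocks (A0 ⊗ₖ B0) W Wᴴ (A1 ⊗ₖ B1)).PosSemidef := by rwa [hW.eq]
  have hS := (PosDef.fromBlocks₂₂ (A0 ⊗ₖ B0) W hC).mp h'
  rw [hW.eq] at hS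
  have hE : (A1 ⊗ₖ B1)⁻¹.PosDef := hC.inv
  have dA : IsUnit A1.det := (isUnit_iff_isUnit_det _).mp hA1.isUnit
  have dB : IsUnit B1.det := (isUnit_iff_isUnit_det _).mp hB1.isUnit
  have e1 : (A0 ⊗ₖ B1) * (A1 ⊗ₖ B1)⁻¹ * (A1 ⊗ₖ B0) = A0 ⊗ₖ B0 := by
    rw [inv_kronecker, ← mul_kronecker_mul, ← mul_kronecker_mul, nonsing_inv_mul_cancel_right _ _ dA,
      mul_nonsing_inv _ dB, Matrix.one_mul]
  have e2 : (A1 ⊗ₖ B0) * (A1 ⊗ₖ B1)⁻¹ * (A0 ⊗ₖ B1) = A0 ⊗ₖ B0 := by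
    rw [inv_kronecker, ← mul_kronecker_mul, ← mul_kronecker_mul, nonsing_inv_mul_cancel_right _ _ dB,
      mul_nonsing_inv _ dA, Matrix.one_mul]
  have hx : (A0 ⊗ₖ B1).PosSemidef := hA0.kronecker hB1.posSemidef
  have hy : (A1 ⊗ₖ B0).PosSemidef := hA1.posSemidef.kronecker hB0
  generalize A0 ⊗ₖ B1 = x at *
  generalize A1 ⊗ₖ B0 = y at *
  generalize (A1 ⊗ₖ B1)⁻¹ = E at *
  generalize A0 ⊗ₖ B0 = C at *
  refine sq_mono' hE (hx.add hy) (hW.add hW) ?_
  have h1 := hE.posSemidef.conjTranspose_mul_mul_same (x - y)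
  rw [(hx.1.sub hy.1).eq] at h1
  have h2 := h1.add ((hS.add hS).add (hS.add hS))
  have e3 : (x + y) * E * (x + y) - (W + W) * E * (W + W) =
      (x - y) * E * (x - y) + ((x * E * y - W * E * W + (y * E * x - W * E * W)) +
        (x * E * y - W * E * W + (y * E * x - W * E * W))) := by noncomm_ring
  rw [e3, e1, e2]
  exact h2

lemma gm {A0 A1 : Matrix n n ℂ} {B0 B1 : Matrix m m ℂ} {W : Matrix (n × m) (n × m) ℂ}
    (hA0 : A0.PosSemidef) (hB0 : B0.PosSemidef) (hA1 : A1.PosSemidef) (hB1 : B1.PosSemidef)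
    (hW : W.IsHermitian) (h : (fromBlocks (A0 ⊗ₖ B0) W W (A1 ⊗ₖ B1)).PosSemidef)
    (γ : n × m → ℂ) :
    2 * (star γ ⬝ᵥ (W *ᵥ γ)).re ≤
      (star γ ⬝ᵥ ((A0 ⊗ₖ B1) *ᵥ γ)).re + (star γ ⬝ᵥ ((A1 ⊗ₖ B0) *ᵥ γ)).re := by
  set c := (star γ ⬝ᵥ ((A0 ⊗ₖ (1 : Matrix m m ℂ)) *ᵥ γ)).re +
    (star γ ⬝ᵥ (((1 : Matrix n n ℂ) ⊗ₖ B0) *ᵥ γ)).re with hc
  have key : ∀ δ : ℝ, 0 < δ → 2 * (star γ ⬝ᵥ (W *ᵥ γ)).re ≤
      (star γ ⬝ᵥ ((A0 ⊗ₖ B1) *ᵥ γ)).re + (star γ ⬝ᵥ ((A1 ⊗ₖ B0) *ᵥ γ)).re + δ * c := by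
    intro δ hδ
    have hδ' : (0 : ℂ) < δ := by exact_mod_cast hδ
    have p1 : ((δ : ℂ) • (1 : Matrix n n ℂ)).PosDef := PosDef.one.smul hδ'
    have p2 : ((δ : ℂ) • (1 : Matrix m m ℂ)).PosDef := PosDef.one.smul hδ'
    have q1 : (A1 + (δ : ℂ) • (1 : Matrix n n ℂ)).PosDef := PosDef.posSemidef_add hA1 p1
    have q2 : (B1 + (δ : ℂ) • (1 : Matrix m m ℂ)).PosDef := PosDef.posSemidef_add hB1 p2
    have q3 : (A1 ⊗ₖ ((δ : ℂ) • (1 : Matrix m m ℂ)) +
        ((δ : ℂ) • (1 : Matrix n n ℂ)) ⊗ₖ (B1 + (δ : ℂ) • (1 : Matrix m m ℂ))).PosSemidef :=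
      (hA1.kronecker p2.posSemidef).add (p1.posSemidef.kronecker q2.posSemidef)
    have q4 := h.add (psd_diag_blocks (PosSemidef.zero (n := n × m)) q3)
    rw [fromBlocks_add] at q4
    have q5 : (fromBlocks (A0 ⊗ₖ B0) W W ((A1 + (δ : ℂ) • (1 : Matrix n n ℂ)) ⊗ₖ
        (B1 + (δ : ℂ) • (1 : Matrix m m ℂ)))).PosSemidef := by
      convert q4 using 2
      · simp
      · simp
      · simp
      · rw [add_kronecker, kronecker_add, add_assoc]
    have q6 := (gm_posDef hA0 hB0 q1 q2 hW q5).dotProduct_mulVec_nonneg γ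
    rw [kronecker_add, add_kronecker, kronecker_smul, smul_kronecker] at q6
    simp only [sub_mulVec, add_mulVec, dotProduct_sub, dotProduct_add, smul_mulVec,
      dotProduct_smul, smul_eq_mul] at q6
    have q7 := (Complex.nonneg_iff.mp q6).1
    simp only [Complex.sub_re, Complex.add_re, Complex.re_ofReal_mul] at q7
    rw [hc]
    linarith
  have hc0 : 0 ≤ c := add_nonneg
    (Complex.nonneg_iff.mp ((hA0.kronecker PosSemidef.one).dotProduct_mulVec_nonneg γ)).1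
    (Complex.nonneg_iff.mp ((PosSemidef.one.kronecker hB0).dotProduct_mulVec_nonneg γ)).1
  apply le_of_forall_pos_le_add
  intro ε hε
  have := key (ε / (c + 1)) (by positivity)
  have h2 : ε / (c + 1) * c ≤ ε := by
    rw [div_mul_eq_mul_div, div_le_iff₀ (by positivity)]
    nlinarith
  linarith

end

section Kraus

variable {A B D D' ι κ : Type} [Fintype A] [Fintype B] [Fintype D] [Fintype D'] [Fintype ι]
  [Fintype κ]

/-- the adjoint Kraus map has symmetric outputs -/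
def Sym (K : ι → Matrix A D ℂ) : Prop :=
  ∀ x x' d d', ∑ a, star (K a x d) * K a x' d' = ∑ a, star (K a x d') * K a x' d

noncomputable def adj (K : ι → Matrix A D ℂ) (M : Matrix A A ℂ) : Matrix D D ℂ :=
  ∑ a, (K a)ᴴ * M * K a

noncomputable def st (K : ι → Matrix A D ℂ) (γ : D → ℂ) : Matrix A A ℂ :=
  ∑ a, proj (K a *ᵥ γ)

def pairK (K : ι → Matrix A D ℂ) (L : κ → Matrix B D' ℂ) :
    ι × κ → Matrix (A × B) (D × D') ℂ := fun ab => K ab.1 ⊗ₖ L ab.2

omit [Fintype D] in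
lemma adj_apply (K : ι → Matrix A D ℂ) (M : Matrix A A ℂ) (d d' : D) :
    adj K M d d' = ∑ x, ∑ x', M x x' * ∑ a, star (K a x d) * K a x' d' := by
  simp only [adj, Matrix.sum_apply, mul_apply, conjTranspose_apply, Finset.sum_mul, Finset.mul_sum]
  rw [Finset.sum_comm]
  rw [Finset.sum_congr rfl fun x' _ => Finset.sum_comm]
  rw [Finset.sum_comm]
  refine Finset.sum_congr rfl fun x _ => Finset.sum_congr rfl fun x' _ =>
    Finset.sum_congr rfl fun a _ => by ring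

omit [Fintype D] in
lemma Sym.transpose {K : ι → Matrix A D ℂ} (hK : Sym K) (M : Matrix A A ℂ) :
    (adj K M)ᵀ = adj K M := by
  ext d d'
  rw [transpose_apply, adj_apply, adj_apply]
  exact Finset.sum_congr rfl fun x _ => Finset.sum_congr rfl fun x' _ => by rw [hK]

omit [Fintype A] [Fintype B] [Fintype D] [Fintype D'] in
lemma Sym.pair {K : ι → Matrix A D ℂ} {L : κ → Matrix B D' ℂ} (hK : Sym K) (hL : Sym L) :
    Sym (pairK K L) := by
  rintro ⟨x, y⟩ ⟨x', y'⟩ ⟨d, e⟩ ⟨d', e'⟩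
  have h : ∀ (d d' : D) (e e' : D'), ∑ a : ι × κ, star (pairK K L a (x, y) (d, e)) *
      pairK K L a (x', y') (d', e') =
      (∑ a, star (K a x d) * K a x' d') * ∑ b, star (L b y e) * L b y' e' := by
    intro d d' e e'
    rw [Finset.sum_mul_sum, Fintype.sum_prod_type]
    refine Finset.sum_congr rfl fun a _ => Finset.sum_congr rfl fun b _ => ?_
    simp only [pairK, kroneckerMap_apply, star_mul']
    ring
  rw [h, h, hK, hL]

omit [Fintype D] [Fintype D'] in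
lemma adj_pair (K : ι → Matrix A D ℂ) (L : κ → Matrix B D' ℂ) (M : Matrix A A ℂ)
    (N : Matrix B B ℂ) : adj (pairK K L) (M ⊗ₖ N) = adj K M ⊗ₖ adj L N := by
  simp only [adj, pairK, Fintype.sum_prod_type, conjTranspose_kronecker, ← mul_kronecker_mul]
  ext ⟨d, e⟩ ⟨d', e'⟩
  simp only [Matrix.sum_apply, kroneckerMap_apply, Finset.sum_mul_sum]

lemma adj_psd (K : ι → Matrix A D ℂ) {M : Matrix A A ℂ} (hM : M.PosSemidef) :
    (adj K M).PosSemidef :=
  posSemidef_sum _ fun a _ => hM.conjTranspose_mul_mul_same (K a)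

omit [Fintype D] in
lemma adj_conj (K : ι → Matrix A D ℂ) (M : Matrix A A ℂ) : (adj K M)ᴴ = adj K Mᴴ := by
  simp only [adj, conjTranspose_sum, conjTranspose_mul, conjTranspose_conjTranspose,
    Matrix.mul_assoc]

lemma adj_blocks (K : ι → Matrix A D ℂ) {C0 Z Z' C1 : Matrix A A ℂ}
    (h : (fromBlocks C0 Z Z' C1).PosSemidef) :
    (fromBlocks (adj K C0) (adj K Z) (adj K Z') (adj K C1)).PosSemidef := by
  have h1 := posSemidef_sum Finset.univ
    fun a _ => h.conjTranspose_mul_mul_same (fromBlocks (K a) 0 0 (K a))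
  convert h1 using 1
  simp only [fromBlocks_conjTranspose, fromBlocks_multiply]
  ext (i | i) (j | j) <;> simp [adj, Matrix.sum_apply]

lemma tr_mul_proj (Z : Matrix A A ℂ) (v : A → ℂ) :
    (Z * proj v).trace = star v ⬝ᵥ (Z *ᵥ v) := by
  simp only [proj, trace, diag_apply, mul_apply, vecMulVec_apply, dotProduct, mulVec,
    Finset.mul_sum]
  refine Finset.sum_congr rfl fun x _ => Finset.sum_congr rfl fun y _ => by ring

lemma tr_mul_st (K : ι → Matrix A D ℂ) (γ : D → ℂ) (Z : Matrix A A ℂ) :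
    (Z * st K γ).trace = star γ ⬝ᵥ (adj K Z *ᵥ γ) := by
  simp only [st, adj, Finset.mul_sum, trace_sum, tr_mul_proj, sum_mulVec, dotProduct_sum]
  refine Finset.sum_congr rfl fun a _ => ?_
  rw [star_mulVec, ← mulVec_mulVec, ← mulVec_mulVec, dotProduct_mulVec (star γ)]

/-- the key inequality -/
def KeyIneq (ρ : Matrix (A × B) (A × B) ℂ) : Prop :=
  ∀ (M0 M1 : Matrix A A ℂ) (N0 N1 : Matrix B B ℂ) (Z : Matrix (A × B) (A × B) ℂ),
    M0.PosSemidef → M1.PosSemidef → N0.PosSemidef → N1.PosSemidef →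
    (fromBlocks (M0 ⊗ₖ N0) Z Zᴴ (M1 ⊗ₖ N1)).PosSemidef →
    2 * (Z * ρ).trace.re ≤ ((M0 ⊗ₖ N1) * ρ).trace.re + ((M1 ⊗ₖ N0) * ρ).trace.re

theorem keyIneq_st {K : ι → Matrix A D ℂ} {L : κ → Matrix B D' ℂ} (hK : Sym K) (hL : Sym L)
    (γ : D × D' → ℂ) : KeyIneq (st (pairK K L) γ) := by
  classical
  intro M0 M1 N0 N1 Z hM0 hM1 hN0 hN1 h
  have hS := hK.pair hL
  have h1 := adj_blocks (pairK K L) h
  have h2 := h1.transpose
  rw [fromBlocks_transpose, hS.transpose, hS.transpose, hS.transpose, hS.transpose] at h2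
  set Y := adj (pairK K L) Z with hY
  have hY' : adj (pairK K L) Zᴴ = Yᴴ := (adj_conj _ _).symm
  rw [hY'] at h1 h2
  have h3 := (h1.add h2).smul (a := (1 / 2 : ℂ)) (by rw [Complex.nonneg_iff]; norm_num)
  have hW : ((1 / 2 : ℂ) • (Y + Yᴴ)).IsHermitian := by
    unfold IsHermitian
    rw [conjTranspose_smul, conjTranspose_add, conjTranspose_conjTranspose, add_comm]
    congr 1
    simp
  have h4 : (fromBlocks (adj K M0 ⊗ₖ adj L N0) ((1 / 2 : ℂ) • (Y + Yᴴ)) ((1 / 2 : ℂ) • (Y + Yᴴ))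
      (adj K M1 ⊗ₖ adj L N1)).PosSemidef := by
    rw [fromBlocks_add, fromBlocks_smul, adj_pair, adj_pair] at h3
    convert h3 using 2
    · rw [← two_smul ℂ, smul_smul]; norm_num
    · rw [add_comm]
    · rw [← two_smul ℂ, smul_smul]; norm_num
  have h5 := gm (adj_psd K hM0) (adj_psd L hN0) (adj_psd K hM1) (adj_psd L hN1) hW h4 γ
  rw [tr_mul_st, tr_mul_st, tr_mul_st, adj_pair, adj_pair, ← hY]
  have h6 : (star γ ⬝ᵥ (Yᴴ *ᵥ γ)) = star (star γ ⬝ᵥ (Y *ᵥ γ)) := by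
    rw [← star_dotProduct_star, star_star, star_mulVec, dotProduct_mulVec, dotProduct_comm]
  have h7 : (star γ ⬝ᵥ (((1 / 2 : ℂ) • (Y + Yᴴ)) *ᵥ γ)).re = (star γ ⬝ᵥ (Y *ᵥ γ)).re := by
    rw [smul_mulVec, add_mulVec, dotProduct_smul, dotProduct_add, h6]
    simp
    ring
  rw [h7] at h5
  exact h5

end Kraus

end Vale.Agent.P372
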