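import Vale.Agent.P372.Defs

/-! Operator lemmas: functional calculus, trace-norm duality, Powers-Stormer, polar form. -/

open scoped ComplexOrder MatrixOrder Kronecker
open Matrix

namespace Vale.Agent.P372

variable {n m : Type} [Fintype n] [DecidableEq n] [Fintype m] [DecidableEq m]

section fc

variable {A : Matrix n n ℂ} (hA : A.IsHermitian)

lemma fc_mul (f g : ℝ → ℝ) : hA.cfc f * hA.cfc g = hA.cfc (fun x => f x * g x) := by
  simp only [IsHermitian.cfc, ← map_mul, diagonal_mul_diagonal]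
  congr 2
  funext i
  simp

lemma fc_add (f g : ℝ → ℝ) : hA.cfc f + hA.cfc g = hA.cfc (fun x => f x + g x) := by
  simp only [IsHermitian.cfc, ← map_add, diagonal_add]
  congr 2
  funext i
  simp

lemma fc_sub (f g : ℝ → ℝ) : hA.cfc f - hA.cfc g = hA.cfc (fun x => f x - g x) := by
  simp only [IsHermitian.cfc, ← map_sub, diagonal_sub]
  congr 2
  funext i
  simp

lemma fc_id : hA.cfc (fun x => x) = A := by
  conv_rhs => rw [hA.spectral_theorem]
  rfl

lemma fc_one : hA.cfc (fun _ => 1) = 1 := by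
  have : (diagonal (RCLike.ofReal ∘ (fun _ : ℝ => (1 : ℝ)) ∘ hA.eigenvalues) : Matrix n n ℂ) = 1 := by
    rw [← diagonal_one]
    congr 1
  simp only [IsHermitian.cfc, this, map_one]

lemma fc_congr {f g : ℝ → ℝ} (h : ∀ i, f (hA.eigenvalues i) = g (hA.eigenvalues i)) :
    hA.cfc f = hA.cfc g := by
  simp only [IsHermitian.cfc]
  congr 2
  funext i
  simp [h i]

lemma fc_psd {f : ℝ → ℝ} (h : ∀ i, 0 ≤ f (hA.eigenvalues i)) : (hA.cfc f).PosSemidef := by
  simp only [IsHermitian.cfc, Unitary.conjStarAlgAut_apply, star_eq_conjTranspose]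
  apply PosSemidef.mul_mul_conjTranspose_same
  refine PosSemidef.diagonal fun i => ?_
  simpa using h i

lemma fc_herm (f : ℝ → ℝ) : (hA.cfc f).IsHermitian := by
  have h : hA.cfc f = hA.cfc (fun x => max (f x) 0) - hA.cfc (fun x => max (-f x) 0) := by
    rw [fc_sub]
    exact fc_congr hA fun i => by
      rcases le_total (f (hA.eigenvalues i)) 0 with h | h <;> simp [h]
  rw [h]
  exact (fc_psd hA fun i => le_max_right _ _).1.sub (fc_psd hA fun i => le_max_right _ _).1

end fc

lemma psd_sqrt {A : Matrix n n ℂ} (hA : A.PosSemidef) :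
    ∃ q : Matrix n n ℂ, q.PosSemidef ∧ q * q = A := by
  refine ⟨hA.1.cfc Real.sqrt, fc_psd _ fun i => Real.sqrt_nonneg _, ?_⟩
  rw [fc_mul]
  conv_rhs => rw [← fc_id hA.1]
  exact fc_congr _ fun i => Real.mul_self_sqrt (hA.eigenvalues_nonneg i)

lemma tr_mul_nonneg {A B : Matrix n n ℂ} (hA : A.PosSemidef) (hB : B.PosSemidef) :
    0 ≤ (A * B).trace.re := by
  obtain ⟨q, hq, rfl⟩ := psd_sqrt hA
  have h : (q * q * B).trace = (qᴴ * B * q).trace := by
    rw [hq.1.eq, Matrix.mul_assoc, trace_mul_comm]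
  rw [h]
  exact (Complex.nonneg_iff.mp (hB.conjTranspose_mul_mul_same q).trace_nonneg).1

omit [DecidableEq n] in
lemma psd_of_idem {Q : Matrix n n ℂ} (h1 : Q.IsHermitian) (h2 : Q * Q = Q) : Q.PosSemidef := by
  have := posSemidef_conjTranspose_mul_self Q
  rwa [h1.eq, h2] at this

lemma psd_one_sub {H : Matrix n n ℂ} (h1 : H.IsHermitian) (h2 : H * H = 1) :
    (1 - H).PosSemidef := by
  have h := (posSemidef_conjTranspose_mul_self (1 - H)).smul (a := (1 / 2 : ℂ)) (by
    rw [Complex.nonneg_iff]; norm_num)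
  have h3 : (1 / 2 : ℂ) • ((1 - H)ᴴ * (1 - H)) = 1 - H := by
    rw [conjTranspose_sub, conjTranspose_one, h1.eq, sub_mul, mul_sub, mul_sub, h2]
    simp only [one_mul, mul_one]
    ext i j
    simp only [Matrix.smul_apply, Matrix.sub_apply, smul_eq_mul]
    ring
  rwa [h3] at h

lemma herm_split {X : Matrix n n ℂ} (hX : X.IsHermitian) :
    ∃ P N L : Matrix n n ℂ, P.PosSemidef ∧ N.PosSemidef ∧ X = P - N ∧ L.IsHermitian ∧ L * L = 1 ∧
      L * X = P + N ∧ X * L = P + N ∧ (P + N) * (P + N) = X * X := by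
  refine ⟨hX.cfc (fun x => max x 0), hX.cfc (fun x => max (-x) 0),
    hX.cfc (fun x => if 0 ≤ x then 1 else -1), fc_psd hX fun i => le_max_right _ _,
    fc_psd hX fun i => le_max_right _ _, ?_, fc_herm hX _, ?_, ?_, ?_, ?_⟩
  · rw [fc_sub]
    conv_lhs => rw [← fc_id hX]
    exact fc_congr hX fun i => by
      rcases le_total (hX.eigenvalues i) 0 with h | h <;> simp [h]
  · rw [fc_mul, ← fc_one hX]
    exact fc_congr hX fun i => by split_ifs <;> norm_num
  · rw [fc_add]
    have := fc_mul hX (fun x => if 0 ≤ x then 1 else -1) (fun x => x)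
    rw [fc_id] at this
    rw [this]
    exact fc_congr hX fun i => by
      split_ifs with h
      · simp [h]
      · push Not at h
        simp [h.le]
  · rw [fc_add]
    have := fc_mul hX (fun x => x) (fun x => if 0 ≤ x then 1 else -1)
    rw [fc_id] at this
    rw [this]
    exact fc_congr hX fun i => by
      split_ifs with h
      · simp [h]
      · push Not at h
        simp [h.le]
  · rw [fc_add, fc_mul]
    have := fc_mul hX (fun x => x) (fun x => x)
    rw [fc_id] at this
    rw [this]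
    exact fc_congr hX fun i => by
      rcases le_total (hX.eigenvalues i) 0 with h | h <;> simp [h]

/-- trace-norm duality -/
lemma tr_le_traceNorm {X H : Matrix n n ℂ} (hX : X.IsHermitian) (h1 : H.IsHermitian)
    (h2 : H * H = 1) : (H * X).trace.re ≤ traceNorm X := by
  obtain ⟨P, N, -, hP, hN, hPN, -, -, -, -, hsq⟩ := herm_split hX
  have hs0 : CFC.sqrt (Xᴴ * X) = P + N := by
    apply CFC.sqrt_unique
    · rw [hX.eq, hsq]
    · exact (hP.add hN).nonneg
  have hs : (isHermitian_conjTranspose_mul_self X).cfc Real.sqrt = P + N := by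
    rw [← hs0]
    symm
    apply CFC.sqrt_unique
    · rw [fc_mul]
      conv_rhs => rw [← fc_id (isHermitian_conjTranspose_mul_self X)]
      exact fc_congr _ fun i => Real.mul_self_sqrt
        ((posSemidef_conjTranspose_mul_self X).eigenvalues_nonneg i)
    · exact (fc_psd _ fun i => Real.sqrt_nonneg _).nonneg
  have a1 := tr_mul_nonneg (psd_one_sub h1 h2) hP
  have a2 := tr_mul_nonneg (psd_one_sub h1.neg (by simpa using h2)) hN
  unfold traceNorm
  rw [hs]
  conv_lhs => rw [hPN]
  simp only [sub_mul, mul_sub, neg_mul, one_mul, trace_sub, trace_add, trace_neg, Complex.sub_re,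
    Complex.add_re, Complex.neg_re] at a1 a2 ⊢
  linarith

/-- Powers-Stormer -/
lemma powers_stormer {a b : Matrix n n ℂ} (ha : a.PosSemidef) (hb : b.PosSemidef) :
    ∃ L : Matrix n n ℂ, L.IsHermitian ∧ L * L = 1 ∧
      (a * a).trace.re + (b * b).trace.re - 2 * (a * b).trace.re ≤
        (L * (a * a - b * b)).trace.re := by
  obtain ⟨P, N, L, hP, hN, hPN, hL, hL2, hLX, hXL, -⟩ := herm_split (ha.1.sub hb.1)
  refine ⟨L, hL, hL2, ?_⟩
  have a1 := tr_mul_nonneg hP hb
  have a2 := tr_mul_nonneg hN ha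
  have e1 : (L * ((a - b) * (a + b))).trace = ((P + N) * (a + b)).trace := by
    rw [← Matrix.mul_assoc, hLX]
  have e2 : (L * ((a + b) * (a - b))).trace = ((P + N) * (a + b)).trace := by
    rw [← Matrix.mul_assoc, trace_mul_comm, ← Matrix.mul_assoc, hXL]
  have e3 : ((a - b) * (a - b)).trace = ((P - N) * (a - b)).trace := by rw [← hPN]
  have e4 : (b * a).trace = (a * b).trace := trace_mul_comm _ _
  have e1' := congrArg Complex.re e1
  have e2' := congrArg Complex.re e2
  have e3' := congrArg Complex.re e3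
  have e4' := congrArg Complex.re e4
  simp only [sub_mul, mul_sub, add_mul, mul_add, trace_sub, trace_add, Complex.sub_re,
    Complex.add_re] at e1' e2' e3' ⊢
  linarith

lemma polar (R : Matrix m n ℂ) : ∃ (q : Matrix n n ℂ) (V : Matrix m n ℂ), q.PosSemidef ∧
    q * q = Rᴴ * R ∧ Vᴴ * R = q ∧ (1 - V * Vᴴ).PosSemidef := by
  have hs := posSemidef_conjTranspose_mul_self R
  set g : ℝ → ℝ := fun x => (Real.sqrt x)⁻¹ with hg
  have hid := fc_id hs.1
  have hgH := (fc_herm hs.1 g).eq
  refine ⟨hs.1.cfc Real.sqrt, R * hs.1.cfc g, fc_psd _ fun i => Real.sqrt_nonneg _, ?_, ?_, ?_⟩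
  · rw [fc_mul]
    conv_rhs => rw [← hid]
    exact fc_congr _ fun i => Real.mul_self_sqrt (hs.eigenvalues_nonneg i)
  · rw [conjTranspose_mul, hgH, Matrix.mul_assoc]
    have := fc_mul hs.1 g (fun x => x)
    rw [hid] at this
    rw [this]
    refine fc_congr _ fun i => ?_
    have h0 := hs.eigenvalues_nonneg i
    generalize hs.1.eigenvalues i = x at h0
    rcases h0.eq_or_lt with h | h
    · subst h; simp
    · have := Real.sqrt_pos.mpr h
      have h2 := Real.mul_self_sqrt h.le
      simp only [hg]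
      field_simp
      linarith
  · apply psd_of_idem
    · exact isHermitian_one.sub (isHermitian_mul_conjTranspose_self _)
    · have key : hs.1.cfc g * hs.1.cfc g * (Rᴴ * R) * (hs.1.cfc g * hs.1.cfc g) =
          hs.1.cfc g * hs.1.cfc g := by
        have := fc_mul hs.1 (fun x => g x * g x) (fun x => x)
        rw [hid] at this
        rw [fc_mul, this, fc_mul]
        refine fc_congr _ fun i => ?_
        have h0 := hs.eigenvalues_nonneg i
        generalize hs.1.eigenvalues i = x at h0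
        rcases h0.eq_or_lt with h | h
        · subst h; simp [hg]
        · have := Real.sqrt_pos.mpr h
          have h2 := Real.mul_self_sqrt h.le
          simp only [hg]
          field_simp
          linarith
      have hQ : R * hs.1.cfc g * (R * hs.1.cfc g)ᴴ * (R * hs.1.cfc g * (R * hs.1.cfc g)ᴴ) =
          R * hs.1.cfc g * (R * hs.1.cfc g)ᴴ := by
        rw [conjTranspose_mul, hgH]
        calc R * hs.1.cfc g * (hs.1.cfc g * Rᴴ) * (R * hs.1.cfc g * (hs.1.cfc g * Rᴴ))
            = R * (hs.1.cfc g * hs.1.cfc g * (Rᴴ * R) * (hs.1.cfc g * hs.1.cfc g)) * Rᴴ := by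
              simp only [Matrix.mul_assoc]
          _ = R * hs.1.cfc g * (hs.1.cfc g * Rᴴ) := by
              rw [key]; simp only [Matrix.mul_assoc]
      rw [sub_mul, mul_sub, mul_sub, hQ]
      simp

omit [Fintype n] [DecidableEq n] [Fintype m] [DecidableEq m] in
lemma psd_diag_blocks [Finite n] [Finite m] {A : Matrix n n ℂ} {B : Matrix m m ℂ}
    (hA : A.PosSemidef) (hB : B.PosSemidef) : (fromBlocks A 0 0 B).PosSemidef := by
  classical
  have := Fintype.ofFinite n
  have := Fintype.ofFinite m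
  obtain ⟨a, ha, rfl⟩ := psd_sqrt hA
  obtain ⟨b, hb, rfl⟩ := psd_sqrt hB
  have := posSemidef_conjTranspose_mul_self (fromBlocks a 0 0 b)
  rw [fromBlocks_conjTranspose, fromBlocks_multiply, ha.1.eq, hb.1.eq] at this
  simpa using this

/-- a purification-level form of the Powers-Stormer inequality -/
lemma fid {C0 C1 : Matrix m m ℂ} (h0 : C0.PosSemidef) (h1 : C1.PosSemidef) (Ψ : Matrix m n ℂ) :
    ∃ (Z : Matrix m m ℂ) (L : Matrix n n ℂ), (fromBlocks C0 Z Zᴴ C1).PosSemidef ∧
      L.IsHermitian ∧ L * L = 1 ∧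
      (Ψᴴ * C0 * Ψ).trace.re + (Ψᴴ * C1 * Ψ).trace.re - 2 * (Ψᴴ * Z * Ψ).trace.re ≤
        (L * (Ψᴴ * C0 * Ψ - Ψᴴ * C1 * Ψ)).trace.re := by
  obtain ⟨c0, hc0, rfl⟩ := psd_sqrt h0
  obtain ⟨c1, hc1, rfl⟩ := psd_sqrt h1
  obtain ⟨q0, V0, hq0, e0, f0, g0⟩ := polar (c0 * Ψ)
  obtain ⟨q1, V1, hq1, e1, f1, g1⟩ := polar (c1 * Ψ)
  obtain ⟨L, hL, hL2, hPS⟩ := powers_stormer hq0 hq1
  refine ⟨c0 * (V0 * V1ᴴ) * c1, L, ?_, hL, hL2, ?_⟩
  · have p1 := posSemidef_self_mul_conjTranspose (fromRows V0 V1)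
    rw [conjTranspose_fromRows_eq_fromCols_conjTranspose, fromRows_mul_fromCols] at p1
    have p2 := (p1.add (psd_diag_blocks g0 g1)).conjTranspose_mul_mul_same (fromBlocks c0 0 0 c1)
    rw [fromBlocks_add, fromBlocks_conjTranspose, fromBlocks_multiply, fromBlocks_multiply,
      hc0.1.eq, hc1.1.eq] at p2
    convert p2 using 2 <;> simp [hc0.1.eq, hc1.1.eq, Matrix.mul_assoc]
  · have a0 : Ψᴴ * (c0 * c0) * Ψ = q0 * q0 := by
      rw [e0, conjTranspose_mul, hc0.1.eq]; simp only [Matrix.mul_assoc]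
    have a1 : Ψᴴ * (c1 * c1) * Ψ = q1 * q1 := by
      rw [e1, conjTranspose_mul, hc1.1.eq]; simp only [Matrix.mul_assoc]
    have a2 : Ψᴴ * (c0 * (V0 * V1ᴴ) * c1) * Ψ = q0 * q1 := by
      have : q0 = (c0 * Ψ)ᴴ * V0 := by
        rw [← hq0.1.eq, ← f0, conjTranspose_mul, conjTranspose_conjTranspose]
      rw [this, ← f1, conjTranspose_mul, hc0.1.eq]
      simp only [Matrix.mul_assoc]
    rw [a0, a1, a2]
    exact hPS

end Vale.Agent.P372
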