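import Vale.Agent.P372.Bound

/-! Tensor powers keep the doubly symmetric form; the key rate vanishes. -/

open scoped ComplexOrder MatrixOrder Kronecker ENNReal
open Matrix Filter Topology

namespace Vale.Agent.P372

lemma prod_sum2 {n : ℕ} {α β : Type} [Fintype α] [Fintype β] (f : Fin n → α → β → ℂ) :
    ∑ a : Fin n → α, ∑ b : Fin n → β, ∏ i, f i (a i) (b i) = ∏ i, ∑ a, ∑ b, f i a b := by
  rw [Fintype.prod_sum fun i a => ∑ b, f i a b]
  exact Finset.sum_congr rfl fun a _ => (Fintype.prod_sum fun i b => f i (a i) b).symm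

variable {dA dB dE : ℕ} {D D' ι κ : Type} [Fintype D] [Fintype D'] [Fintype ι] [Fintype κ]

def powK (K : ι → Matrix (Fin dA) D ℂ) (n : ℕ) :
    (Fin n → ι) → Matrix (Fin (dA ^ n)) (Fin n → D) ℂ :=
  fun a x d => ∏ i, K (a i) (finFunctionFinEquiv.symm x i) (d i)

omit [Fintype D] in
lemma Sym.pow {K : ι → Matrix (Fin dA) D ℂ} (hK : Sym K) (n : ℕ) : Sym (powK K n) := by
  intro x x' d d'
  have h : ∀ d d' : Fin n → D, ∑ a, star (powK K n a x d) * powK K n a x' d' =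
      ∏ i, ∑ a, star (K a (finFunctionFinEquiv.symm x i) (d i)) *
        K a (finFunctionFinEquiv.symm x' i) (d' i) := by
    intro d d'
    rw [Fintype.prod_sum fun i a => star (K a (finFunctionFinEquiv.symm x i) (d i)) *
        K a (finFunctionFinEquiv.symm x' i) (d' i)]
    simp only [powK, star_prod, Finset.prod_mul_distrib]
  rw [h, h]
  exact Finset.prod_congr rfl fun i _ => hK _ _ _ _

def powV (γ : D × D' → ℂ) (n : ℕ) : (Fin n → D) × (Fin n → D') → ℂ :=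
  fun x => ∏ i, γ (x.1 i, x.2 i)

omit [Fintype ι] [Fintype κ] in
lemma pow_mulVec (K : ι → Matrix (Fin dA) D ℂ) (L : κ → Matrix (Fin dB) D' ℂ) (γ : D × D' → ℂ)
    (n : ℕ) (a : Fin n → ι) (b : Fin n → κ) (s : Fin (dA ^ n) × Fin (dB ^ n)) :
    (pairK (powK K n) (powK L n) (a, b) *ᵥ powV γ n) s =
      ∏ i, (pairK K L (a i, b i) *ᵥ γ)
        (finFunctionFinEquiv.symm s.1 i, finFunctionFinEquiv.symm s.2 i) := by
  obtain ⟨x, y⟩ := s
  simp only [mulVec, dotProduct, pairK, Fintype.sum_prod_type, kroneckerMap_apply, powK, powV]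
  rw [← prod_sum2]
  simp only [Finset.prod_mul_distrib]

lemma st_pow (K : ι → Matrix (Fin dA) D ℂ) (L : κ → Matrix (Fin dB) D' ℂ) (γ : D × D' → ℂ)
    (n : ℕ) (s s' : Fin (dA ^ n) × Fin (dB ^ n)) :
    st (pairK (powK K n) (powK L n)) (powV γ n) s s' =
      ∏ i, st (pairK K L) γ (finFunctionFinEquiv.symm s.1 i, finFunctionFinEquiv.symm s.2 i)
        (finFunctionFinEquiv.symm s'.1 i, finFunctionFinEquiv.symm s'.2 i) := by
  simp only [st, Matrix.sum_apply, proj, vecMulVec_apply, Fintype.sum_prod_type, Pi.star_apply,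
    pow_mulVec]
  rw [← prod_sum2]
  simp only [Finset.prod_mul_distrib, star_prod]

lemma traceSnd_power (ψ : (Fin dA × Fin dB) × Fin dE → ℂ) (n : ℕ)
    (s s' : Fin (dA ^ n) × Fin (dB ^ n)) :
    traceSnd (proj (power ψ n)) s s' =
      ∏ i, traceSnd (proj ψ) (finFunctionFinEquiv.symm s.1 i, finFunctionFinEquiv.symm s.2 i)
        (finFunctionFinEquiv.symm s'.1 i, finFunctionFinEquiv.symm s'.2 i) := by
  simp only [traceSnd, proj, vecMulVec_apply, Pi.star_apply, power]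
  rw [Fintype.prod_sum]
  simp only [Finset.prod_mul_distrib, star_prod]

lemma trace_power (ψ : (Fin dA × Fin dB) × Fin dE → ℂ) (n : ℕ)
    (h : (traceSnd (proj ψ)).trace = 1) : (traceSnd (proj (power ψ n))).trace = 1 := by
  simp only [trace, diag_apply, traceSnd_power, Fintype.sum_prod_type] at h ⊢
  rw [← Equiv.sum_comp finFunctionFinEquiv]
  simp only [← Equiv.sum_comp (finFunctionFinEquiv (m := dB) (n := n)), Equiv.symm_apply_apply]
  rw [prod_sum2 fun _ a b => traceSnd (proj ψ) (a, b) (a, b)]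
  simp [h]

theorem error_power {K : ι → Matrix (Fin dA) D ℂ} {L : κ → Matrix (Fin dB) D' ℂ} (hK : Sym K)
    (hL : Sym L) (γ : D × D' → ℂ) (h1 : (st (pairK K L) γ).trace = 1)
    (ψ : (Fin dA × Fin dB) × Fin dE → ℂ) (hψ : IsPurification ψ (st (pairK K L) γ))
    (n ℓ : ℕ) (P : Protocol ℓ (dA ^ n) (dB ^ n)) (ε : ℝ) (hℓ : 1 ≤ ℓ)
    (h : HasError P (power ψ n) ε) : 2 / 3 ≤ ε := by
  obtain ⟨ℓ, rfl⟩ : ∃ k, ℓ = k + 1 := ⟨ℓ - 1, by omega⟩
  have hψ' : traceSnd (proj ψ) = st (pairK K L) γ := hψ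
  refine error_bound P _ ?_ (trace_power ψ n (by rw [hψ', h1])) h
  have : traceSnd (proj (power ψ n)) = st (pairK (powK K n) (powK L n)) (powV γ n) := by
    ext s s'
    rw [traceSnd_power, st_pow, hψ']
  rw [this]
  exact keyIneq_st (hK.pow n) (hL.pow n) _

theorem keyRate_eq_zero (ψ : (Fin dA × Fin dB) × Fin dE → ℂ)
    (h : ∀ (n ℓ : ℕ) (P : Protocol ℓ (dA ^ n) (dB ^ n)) (ε : ℝ), 1 ≤ ℓ →
      HasError P (power ψ n) ε → 2 / 3 ≤ ε) : keyRate ψ = 0 := by
  refine sSup_eq_bot.mpr ?_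
  rintro r ⟨ℓ, P, ε, h1, h2, rfl⟩
  have h3 : ∀ᶠ n in atTop, ε n < 2 / 3 := h2.eventually (gt_mem_nhds (by norm_num))
  have h4 : (fun n : ℕ => (ℓ n : ℝ≥0∞) / (n : ℝ≥0∞)) =ᶠ[atTop] fun _ => 0 := by
    filter_upwards [h3] with n hn
    have : ℓ n = 0 := by
      by_contra h0
      exact absurd (h n (ℓ n) (P n) (ε n) (by omega) (h1 n)) (not_le.mpr hn)
    simp [this]
  rw [liminf_congr h4, liminf_const]
  rfl

end Vale.Agent.P372
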