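import Vale.Agent.P372.GM

/-! Protocols give product effects; the key inequality forces a constant error. -/

open scoped ComplexOrder MatrixOrder Kronecker
open Matrix

namespace Vale.Agent.P372

section
variable {E : Type} [Fintype E] [DecidableEq E]

lemma traceFst_cyc {S S' : Type} [Fintype S] [Fintype S'] (Y : Matrix (S' × E) (S × E) ℂ)
    (Q : Matrix S S' ℂ) :
    traceFst (Y * (Q ⊗ₖ (1 : Matrix E E ℂ))) = traceFst ((Q ⊗ₖ (1 : Matrix E E ℂ)) * Y) := by
  ext e e'
  simp only [traceFst, mul_apply, Fintype.sum_prod_type, kroneckerMap_apply, one_apply, mul_ite,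
    mul_one, mul_zero, ite_mul, zero_mul, Finset.sum_ite_eq, Finset.sum_ite_eq', Finset.mem_univ,
    if_true]
  rw [Finset.sum_comm]
  exact Finset.sum_congr rfl fun _ _ => Finset.sum_congr rfl fun _ _ => mul_comm _ _

omit [Fintype E] [DecidableEq E] in
lemma traceFst_sum {S ι : Type} [Fintype S] [Fintype ι] (f : ι → Matrix (S × E) (S × E) ℂ) :
    traceFst (∑ j, f j) = ∑ j, traceFst (f j) := by
  ext e e'
  simp only [traceFst, Matrix.sum_apply]
  exact Finset.sum_comm

lemma sum_kron {ι a b c d : Type} [Fintype ι] (f : ι → Matrix a b ℂ) (N : Matrix c d ℂ) :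
    (∑ j, f j) ⊗ₖ N = ∑ j, f j ⊗ₖ N := by
  ext ⟨x, y⟩ ⟨x', y'⟩
  simp [Matrix.sum_apply, Finset.sum_mul]

lemma kron_sum {ι a b c d : Type} [Fintype ι] (f : ι → Matrix a b ℂ) (N : Matrix c d ℂ) :
    N ⊗ₖ (∑ j, f j) = ∑ j, N ⊗ₖ f j := by
  ext ⟨x, y⟩ ⟨x', y'⟩
  simp [Matrix.sum_apply, Finset.mul_sum]

lemma traceFst_adj {S S' ι : Type} [Fintype S] [Fintype S'] [Fintype ι] (Q : ι → Matrix S' S ℂ)
    (C : Matrix S' S' ℂ) (X : Matrix (S × E) (S × E) ℂ) :
    traceFst ((C ⊗ₖ (1 : Matrix E E ℂ)) *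
      ∑ j, (Q j ⊗ₖ (1 : Matrix E E ℂ)) * X * (Q j ⊗ₖ (1 : Matrix E E ℂ))ᴴ) =
    traceFst ((adj Q C ⊗ₖ (1 : Matrix E E ℂ)) * X) := by
  rw [adj, sum_kron, Finset.mul_sum, Finset.sum_mul, traceFst_sum, traceFst_sum]
  refine Finset.sum_congr rfl fun j _ => ?_
  rw [conjTranspose_kronecker, conjTranspose_one, ← Matrix.mul_assoc, traceFst_cyc,
    ← Matrix.mul_assoc, ← Matrix.mul_assoc]
  simp only [← mul_kronecker_mul, Matrix.mul_one]

lemma adj_sum {A D ι κ : Type} [Fintype A] [Fintype D] [Fintype ι] [Fintype κ]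
    (K : ι → Matrix A D ℂ) (M : κ → Matrix A A ℂ) : adj K (∑ k, M k) = ∑ k, adj K (M k) := by
  simp only [adj, Matrix.mul_sum, Matrix.sum_mul]
  exact Finset.sum_comm

lemma adj_left {A B D ι : Type} [Fintype A] [Fintype B] [DecidableEq B] [Fintype D] [Fintype ι]
    (K : ι → Matrix A D ℂ) (M : Matrix A A ℂ) (N : Matrix B B ℂ) :
    adj (fun j => K j ⊗ₖ (1 : Matrix B B ℂ)) (M ⊗ₖ N) = adj K M ⊗ₖ N := by
  simp only [adj, sum_kron, conjTranspose_kronecker, ← mul_kronecker_mul, conjTranspose_one,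
    Matrix.one_mul, Matrix.mul_one]

lemma adj_right {A B D ι : Type} [Fintype A] [Fintype B] [DecidableEq B] [Fintype D] [Fintype ι]
    (K : ι → Matrix A D ℂ) (M : Matrix A A ℂ) (N : Matrix B B ℂ) :
    adj (fun j => (1 : Matrix B B ℂ) ⊗ₖ K j) (N ⊗ₖ M) = N ⊗ₖ adj K M := by
  simp only [adj, kron_sum, conjTranspose_kronecker, ← mul_kronecker_mul, conjTranspose_one,
    Matrix.one_mul, Matrix.mul_one]

lemma sum_transcript {m : ℕ} {T : Fin m → Type} (inst : Fintype ((i : Fin m) × T i))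
    (inst2 : ∀ i, Fintype (T i)) {M : Type} [AddCommMonoid M] (f : (i : Fin m) × T i → M) :
    (@Finset.univ _ inst).sum f = ∑ i, ∑ t, f ⟨i, t⟩ := by
  rw [← Fintype.sum_sigma]
  congr 1
  congr 1
  exact Subsingleton.elim _ _

theorem effects {ℓ a b : ℕ} (P : Protocol ℓ a b) :
    ∃ (M : P.Transcript → Key ℓ → Matrix (Fin a) (Fin a) ℂ)
      (N : P.Transcript → Key ℓ → Matrix (Fin b) (Fin b) ℂ),
      (∀ t k, (M t k).PosSemidef) ∧ (∀ t k, (N t k).PosSemidef) ∧
      ∑ t, ∑ k, ∑ k', M t k ⊗ₖ N t k' = 1 ∧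
      ∀ (X : Matrix ((Fin a × Fin b) × E) ((Fin a × Fin b) × E) ℂ) t k k',
        P.eve X t k k' = traceFst (((M t k ⊗ₖ N t k') ⊗ₖ (1 : Matrix E E ℂ)) * X) := by
  induction P with
  | done M N hM hM1 hN hN1 =>
    refine ⟨fun _ => M, fun _ => N, fun _ => hM, fun _ => hN, ?_, fun X t k k' => rfl⟩
    have h1 : ∑ k, ∑ k', M k ⊗ₖ N k' = 1 := by
      simp only [← kron_sum, ← sum_kron, hM1, hN1, one_kronecker_one]
    have : Unique (Protocol.done M N hM hM1 hN hN1).Transcript := inferInstanceAs (Unique Unit)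
    rw [Fintype.sum_unique, h1]
  | @alice a b m r a' K hK next ih =>
    choose M N hM hN h1 h2 using ih
    refine ⟨fun t k => adj (K t.1) (M t.1 t.2 k), fun t k => N t.1 t.2 k,
      fun t k => adj_psd _ (hM _ _ _), fun t k => hN _ _ _, ?_, fun X t k k' => ?_⟩
    · refine (sum_transcript (T := fun i => (next i).Transcript) _ (fun i => inferInstance) _).trans ?_
      have h3 : ∀ i, ∑ t, ∑ k, ∑ k', adj (K i) (M i t k) ⊗ₖ N i t k' =
          adj (K i) 1 ⊗ₖ (1 : Matrix (Fin b) (Fin b) ℂ) := by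
        intro i
        rw [← adj_left, one_kronecker_one, ← h1 i]
        simp only [adj_sum, adj_left]
      refine (Finset.sum_congr rfl fun i _ => h3 i).trans ?_
      rw [← sum_kron]
      simp only [adj, Matrix.mul_one, hK, one_kronecker_one]
    · show (next t.1).eve _ t.2 k k' = _
      rw [h2, traceFst_adj, adj_left]
  | @bob a b m r b' K hK next ih =>
    choose M N hM hN h1 h2 using ih
    refine ⟨fun t k => M t.1 t.2 k, fun t k => adj (K t.1) (N t.1 t.2 k),
      fun t k => hM _ _ _, fun t k => adj_psd _ (hN _ _ _), ?_, fun X t k k' => ?_⟩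
    · refine (sum_transcript (T := fun i => (next i).Transcript) _ (fun i => inferInstance) _).trans ?_
      have h3 : ∀ i, ∑ t, ∑ k, ∑ k', M i t k ⊗ₖ adj (K i) (N i t k') =
          (1 : Matrix (Fin a) (Fin a) ℂ) ⊗ₖ adj (K i) 1 := by
        intro i
        rw [← adj_right, one_kronecker_one, ← h1 i]
        simp only [adj_sum, adj_right]
      refine (Finset.sum_congr rfl fun i _ => h3 i).trans ?_
      rw [← kron_sum]
      simp only [adj, Matrix.mul_one, hK, one_kronecker_one]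
    · show (next t.1).eve _ t.2 k k' = _
      rw [h2, traceFst_adj, adj_right]

def mat {S : Type} (φ : S × E → ℂ) : Matrix S E ℂ := fun s e => φ (s, e)

lemma traceFst_proj {S : Type} [Fintype S] (C : Matrix S S ℂ) (φ : S × E → ℂ) :
    traceFst ((C ⊗ₖ (1 : Matrix E E ℂ)) * proj φ) = ((mat φ)ᴴ * C * mat φ)ᵀ := by
  ext e e'
  simp only [traceFst, proj, mat, mul_apply, Fintype.sum_prod_type, kroneckerMap_apply, one_apply,
    mul_ite, mul_one, mul_zero, ite_mul, zero_mul, Finset.sum_ite_eq, Finset.mem_univ,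
    if_true, vecMulVec_apply, transpose_apply, conjTranspose_apply, Finset.sum_mul, Pi.star_apply]
  rw [Finset.sum_comm]
  exact Finset.sum_congr rfl fun _ _ => Finset.sum_congr rfl fun _ _ => by ring

omit [DecidableEq E] in
lemma traceSnd_proj {S : Type} (φ : S × E → ℂ) : traceSnd (proj φ) = mat φ * (mat φ)ᴴ := by
  ext s s'
  simp [traceSnd, proj, mat, mul_apply, vecMulVec_apply]

omit [DecidableEq E] in
lemma tr_mat {S : Type} [Fintype S] (C : Matrix S S ℂ) (φ : S × E → ℂ) :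
    ((mat φ)ᴴ * C * mat φ).trace = (C * traceSnd (proj φ)).trace := by
  rw [traceSnd_proj, Matrix.mul_assoc, trace_mul_comm, Matrix.mul_assoc]

end

section cq

variable {K T E : Type} [Fintype K] [DecidableEq K] [Fintype T] [DecidableEq T] [Fintype E]
  [DecidableEq E]

noncomputable def cq (f : K → T → Matrix E E ℂ) : Matrix (K × (E × T)) (K × (E × T)) ℂ :=
  ∑ k, ∑ t, single k k (1 : ℂ) ⊗ₖ (f k t ⊗ₖ single t t (1 : ℂ))

omit [Fintype E] [DecidableEq E] in
lemma cq_apply (f : K → T → Matrix E E ℂ) (k k' : K) (e e' : E) (t t' : T) :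
    cq f (k, e, t) (k', e', t') = if k = k' then if t = t' then f k t e e' else 0 else 0 := by
  simp only [cq, Matrix.sum_apply, kroneckerMap_apply, single_apply, ite_and, mul_ite, ite_mul,
    one_mul, mul_one, zero_mul, mul_zero]
  rw [Finset.sum_eq_single k, Finset.sum_eq_single t]
  · by_cases h1 : k = k' <;> by_cases h2 : t = t' <;> simp [h1, h2]
  · intro b _ hb; simp [hb]
  · simp
  · intro b _ hb; simp [hb]
  · simp

omit [DecidableEq E] in
lemma cq_mul (f g : K → T → Matrix E E ℂ) : cq f * cq g = cq (fun k t => f k t * g k t) := by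
  ext ⟨k, e, t⟩ ⟨k', e', t'⟩
  simp only [mul_apply, Fintype.sum_prod_type, cq_apply, ite_mul, zero_mul]
  rw [Finset.sum_eq_single k]
  · simp only [if_true, Finset.sum_ite_eq, Finset.mem_univ]
    split_ifs <;> simp
  · intro b _ hb; simp [hb.symm]
  · simp

omit [Fintype E] [DecidableEq E] in
lemma cq_herm {f : K → T → Matrix E E ℂ} (h : ∀ k t, (f k t).IsHermitian) : (cq f).IsHermitian := by
  ext ⟨k, e, t⟩ ⟨k', e', t'⟩
  rw [conjTranspose_apply, cq_apply, cq_apply]
  by_cases h1 : k = k'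
  · subst h1
    by_cases h2 : t = t'
    · subst h2
      simp only [if_true]
      exact (h k t).apply e e'
    · simp [h2, Ne.symm h2]
  · simp [h1, Ne.symm h1]

omit [Fintype E] in
lemma cq_one : cq (fun (_ : K) (_ : T) => (1 : Matrix E E ℂ)) = 1 := by
  ext ⟨k, e, t⟩ ⟨k', e', t'⟩
  rw [cq_apply]
  simp only [one_apply, Prod.mk.injEq]
  by_cases h1 : k = k' <;> by_cases h2 : t = t' <;> simp [h1, h2]

omit [DecidableEq E] in
lemma cq_trace (f : K → T → Matrix E E ℂ) : (cq f).trace = ∑ k, ∑ t, (f k t).trace := by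
  simp [cq, trace_sum, trace_kronecker]

omit [DecidableEq E] in
lemma cq_trace_single (f : K → T → Matrix E E ℂ) (k : K) (σ : Matrix (E × T) (E × T) ℂ) :
    (cq f * (single k k (1 : ℂ) ⊗ₖ σ)).trace =
      ∑ t, (f k t * (Matrix.of fun e e' => σ (e, t) (e', t))).trace := by
  simp only [trace, diag_apply, mul_apply, Fintype.sum_prod_type, cq_apply, kroneckerMap_apply,
    single_apply, of_apply, ite_mul, zero_mul, one_mul]
  rw [Finset.sum_eq_single k]
  · rw [Finset.sum_comm]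
    refine Finset.sum_congr rfl fun t _ => Finset.sum_congr rfl fun e _ => ?_
    rw [Finset.sum_eq_single k]
    · simp
    · intro b _ hb; simp [hb.symm]
    · simp
  · intro b _ hb; simp [hb.symm]
  · simp

end cq

end Vale.Agent.P372
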